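import Mathlib
import Vale.Agent.Lib.P084.Far.Lin

/-! Norming functionals: uniqueness, continuity, first order estimates. -/

namespace Vale.Agent.Lib.P084.Cartan

open Set Metric Filter Topology
open Vale.Agent.Lib.P084 Vale.Agent.Lib.P084.Far

section Conv

variable {E : Type*} [NormedAddCommGroup E] [NormedSpace ℝ E]

/-- `φ` is a norming functional at `z`. -/
def Nrm (φ : StrongDual ℝ E) (z : E) : Prop := ‖φ‖ ≤ 1 ∧ φ z = ‖z‖

/-- `φ` is the unique norming functional at `z`. -/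
def Dif (φ : StrongDual ℝ E) (z : E) : Prop := Nrm φ z ∧ ∀ ψ, Nrm ψ z → ψ = φ

lemma exists_nrm (z : E) [Nontrivial E] : ∃ φ : StrongDual ℝ E, Nrm φ z := by
  obtain ⟨φ, hφ, hv⟩ := exists_dual_vector'' ℝ z
  exact ⟨φ, hφ, by simpa using hv⟩

lemma Nrm.le {φ : StrongDual ℝ E} {z : E} (h : Nrm φ z) (w : E) : φ w ≤ ‖w‖ := fle φ h.1 w

lemma Nrm.abs_le {φ : StrongDual ℝ E} {z : E} (h : Nrm φ z) (w : E) : |φ w| ≤ ‖w‖ :=
  functional_le φ h.1

lemma Nrm.lower {φ : StrongDual ℝ E} {z : E} (h : Nrm φ z) (a : E) : ‖z‖ + φ a ≤ ‖z + a‖ := by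
  have := h.le (z + a)
  rw [map_add, h.2] at this
  exact this

/-- A functional below the norm near `z`, with equality at `z`, is norming at `z`. -/
lemma nrm_of_local {ψ : StrongDual ℝ E} {z : E} (hz : ψ z = ‖z‖)
    (hl : ∀ᶠ a in 𝓝 z, ψ a ≤ ‖a‖) : Nrm ψ z := by
  refine ⟨ContinuousLinearMap.opNorm_le_bound _ zero_le_one fun w => ?_, hz⟩
  rw [one_mul, Real.norm_eq_abs, abs_le]
  have key : ∀ w : E, ψ w ≤ ‖w‖ := by
    intro w
    have hc : Tendsto (fun t : ℝ => z + t • w) (𝓝[>] 0) (𝓝 z) := by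
      have : Continuous fun t : ℝ => z + t • w := by fun_prop
      have h2 := this.tendsto 0
      simp only [zero_smul, add_zero] at h2
      exact h2.mono_left nhdsWithin_le_nhds
    obtain ⟨t, ht, ht0⟩ := ((hc.eventually hl).and self_mem_nhdsWithin).exists
    have ht0' : 0 < t := ht0
    have h1 : ψ (z + t • w) = ‖z‖ + t * ψ w := by
      rw [map_add, hz, map_smul, smul_eq_mul]
    have h2 : ‖z + t • w‖ ≤ ‖z‖ + t * ‖w‖ := by
      refine (norm_add_le _ _).trans ?_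
      rw [norm_smul, Real.norm_of_nonneg ht0'.le]
    rw [h1] at ht
    have h3 : t * ψ w ≤ t * ‖w‖ := by linarith
    exact le_of_mul_le_mul_left h3 ht0'
  constructor
  · have := key (-w)
    rw [map_neg, norm_neg] at this
    linarith
  · exact key w

variable [FiniteDimensional ℝ E]

lemma dual_proper : ProperSpace (StrongDual ℝ E) := FiniteDimensional.proper ℝ _

lemma isCompact_dualBall : IsCompact (closedBall (0 : StrongDual ℝ E) 1) :=
  haveI := dual_proper (E := E)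
  isCompact_closedBall _ _

/-- Limits of norming functionals are norming. -/
lemma nrm_of_tendsto {ψ : ℕ → StrongDual ℝ E} {z : ℕ → E} {ψ₀ : StrongDual ℝ E} {z₀ : E}
    (hψ : Tendsto ψ atTop (𝓝 ψ₀)) (hz : Tendsto z atTop (𝓝 z₀)) (h : ∀ n, Nrm (ψ n) (z n)) :
    Nrm ψ₀ z₀ := by
  constructor
  · exact le_of_tendsto hψ.norm (Eventually.of_forall fun n => (h n).1)
  · have h1 : Tendsto (fun n => ψ n (z n)) atTop (𝓝 (ψ₀ z₀)) :=
      (isBoundedBilinearMap_apply (𝕜 := ℝ) (E := E) (F := ℝ)).continuous.continuousAt.tendsto.comp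
        (hψ.prodMk_nhds hz) 
    have h2 : Tendsto (fun n => ψ n (z n)) atTop (𝓝 ‖z₀‖) := by
      have : (fun n => ψ n (z n)) = fun n => ‖z n‖ := funext fun n => (h n).2
      rw [this]
      exact hz.norm
    exact tendsto_nhds_unique h1 h2

/-- Norming functionals near a compact set of points with a common unique norming functional. -/
theorem dif_close_compact {K : Set E} (hK : IsCompact K) {φ : StrongDual ℝ E}
    (hd : ∀ z ∈ K, Dif φ z) {ε : ℝ} (hε : 0 < ε) :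
    ∃ δ : ℝ, 0 < δ ∧ ∀ z ∈ K, ∀ z' : E, ‖z' - z‖ ≤ δ → ∀ ψ, Nrm ψ z' → ‖ψ - φ‖ ≤ ε := by
  by_contra hcon
  push Not at hcon
  have hpos : ∀ n : ℕ, (0 : ℝ) < 1 / ((n : ℝ) + 1) := fun n => by positivity
  choose z hzK z' hz' ψ hψ hbad using fun n : ℕ => hcon (1 / ((n : ℝ) + 1)) (hpos n)
  have hcomp : IsCompact (K ×ˢ closedBall (0 : StrongDual ℝ E) 1) := hK.prod isCompact_dualBall
  have hmem : ∀ n, (z n, ψ n) ∈ K ×ˢ closedBall (0 : StrongDual ℝ E) 1 := fun n =>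
    ⟨hzK n, by simpa using (hψ n).1⟩
  obtain ⟨⟨z₀, ψ₀⟩, hm, σ, hσ, hlim⟩ := hcomp.tendsto_subseq hmem
  have hz₀ : z₀ ∈ K := hm.1
  have hlim1 : Tendsto (fun n => z (σ n)) atTop (𝓝 z₀) := (continuous_fst.tendsto _).comp hlim
  have hlim2 : Tendsto (fun n => ψ (σ n)) atTop (𝓝 ψ₀) := (continuous_snd.tendsto _).comp hlim
  have hδ : Tendsto (fun n : ℕ => 1 / (((σ n : ℕ) : ℝ) + 1)) atTop (𝓝 0) :=
    tendsto_one_div_add_atTop_nhds_zero_nat.comp hσ.tendsto_atTop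
  have hlim3 : Tendsto (fun n => z' (σ n)) atTop (𝓝 z₀) := by
    have h0 : Tendsto (fun n => z' (σ n) - z (σ n)) atTop (𝓝 0) := by
      refine squeeze_zero_norm (fun n => hz' (σ n)) hδ
    have := h0.add hlim1
    simpa using this
  have hN : Nrm ψ₀ z₀ := nrm_of_tendsto hlim2 hlim3 fun n => hψ (σ n)
  have h1 : ψ₀ = φ := (hd z₀ hz₀).2 _ hN
  have h2 : Tendsto (fun n => ‖ψ (σ n) - φ‖) atTop (𝓝 0) := by
    rw [← h1]
    have := (hlim2.sub_const ψ₀).norm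
    simpa using this
  have h3 := ge_of_tendsto' h2 (fun n => (hbad (σ n)).le)
  linarith

/-- First order expansion at a point with unique norming functional. -/
theorem Dif.first_order [Nontrivial E] {φ : StrongDual ℝ E} {z : E} (hd : Dif φ z) {ε : ℝ}
    (hε : 0 < ε) : ∃ δ : ℝ, 0 < δ ∧ ∀ a : E, ‖a‖ ≤ δ → ‖z + a‖ ≤ ‖z‖ + φ a + ε * ‖a‖ := by
  obtain ⟨δ, hδ, h⟩ := dif_close_compact (K := {z}) isCompact_singleton (φ := φ)
    (by simpa using hd) hε
  refine ⟨δ, hδ, fun a ha => ?_⟩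
  obtain ⟨ψ, hψ⟩ := exists_nrm (z + a)
  have h1 := h z rfl (z + a) (by simpa using ha) ψ hψ
  have h2 : ‖z + a‖ = ψ z + ψ a := by
    rw [← hψ.2, map_add]
  have h3 : ψ z ≤ ‖z‖ := hψ.le z
  have h4 : (ψ - φ) a ≤ ‖ψ - φ‖ * ‖a‖ := (le_abs_self _).trans ((ψ - φ).le_opNorm a)
  have h5 : ‖ψ - φ‖ * ‖a‖ ≤ ε * ‖a‖ := mul_le_mul_of_nonneg_right h1 (norm_nonneg _)
  simp only [_root_.sub_apply] at h4
  linarith

/-- Strict differentiability uniformly on a compact set. -/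
theorem strict_compact [Nontrivial E] {K : Set E} (hK : IsCompact K) {φ : StrongDual ℝ E}
    (hd : ∀ z ∈ K, Dif φ z) {ε : ℝ} (hε : 0 < ε) :
    ∃ δ : ℝ, 0 < δ ∧ ∀ z ∈ K, ∀ a b : E, ‖a‖ ≤ δ → ‖b‖ ≤ δ →
      |‖z + a‖ - ‖z + b‖ - φ (a - b)| ≤ ε * ‖a - b‖ := by
  obtain ⟨δ, hδ, h⟩ := dif_close_compact hK hd hε
  refine ⟨δ, hδ, fun z hz a b ha hb => ?_⟩
  have key : ∀ c d : E, ‖c‖ ≤ δ → ‖z + c‖ - ‖z + d‖ - φ (c - d) ≤ ε * ‖c - d‖ := by
    intro c d hc
    obtain ⟨ψ, hψ⟩ := exists_nrm (z + c)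
    have h1 := h z hz (z + c) (by simpa using hc) ψ hψ
    have h2 : ‖z + c‖ = ψ (z + d) + ψ (c - d) := by
      rw [← hψ.2, ← map_add]
      congr 1
      abel
    have h3 : ψ (z + d) ≤ ‖z + d‖ := hψ.le _
    have h4 : (ψ - φ) (c - d) ≤ ‖ψ - φ‖ * ‖c - d‖ :=
      (le_abs_self _).trans ((ψ - φ).le_opNorm _)
    have h5 : ‖ψ - φ‖ * ‖c - d‖ ≤ ε * ‖c - d‖ := mul_le_mul_of_nonneg_right h1 (norm_nonneg _)
    simp only [_root_.sub_apply] at h4
    linarith
  rw [abs_le]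
  have k1 := key a b ha
  have k2 := key b a hb
  have e1 : φ (b - a) = - φ (a - b) := by
    rw [← map_neg, neg_sub]
  rw [e1, norm_sub_rev b a] at k2
  constructor <;> linarith

/-- Directions in the open cone of chords, characterised by positivity. -/
theorem inP_of_pos [Nontrivial E] {p a : E} (hp : ‖p‖ = 1) (h : ∀ ψ, Nrm ψ p → 0 < ψ a) :
    InP p a := by
  by_contra hcon
  have hall : ∀ n : ℕ, 1 ≤ ‖p - (1 / ((n : ℝ) + 1)) • a‖ := by
    intro n
    by_contra hlt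
    exact hcon ⟨1 / ((n : ℝ) + 1), by positivity, not_le.1 hlt⟩
  choose ψ hψ using fun n : ℕ => exists_nrm (p - (1 / ((n : ℝ) + 1)) • a)
  have hmem : ∀ n, ψ n ∈ closedBall (0 : StrongDual ℝ E) 1 := fun n => by
    simpa using (hψ n).1
  obtain ⟨ψ₀, -, σ, hσ, hlim⟩ := isCompact_dualBall.tendsto_subseq hmem
  have hδ : Tendsto (fun n : ℕ => 1 / (((σ n : ℕ) : ℝ) + 1)) atTop (𝓝 0) :=
    tendsto_one_div_add_atTop_nhds_zero_nat.comp hσ.tendsto_atTop
  have hz : Tendsto (fun n : ℕ => p - (1 / (((σ n : ℕ) : ℝ) + 1)) • a) atTop (𝓝 p) := by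
    have := (hδ.smul_const a).const_sub p
    simpa using this
  have hN : Nrm ψ₀ p := nrm_of_tendsto hlim hz fun n => hψ (σ n)
  have hpos := h ψ₀ hN
  have hle : ∀ n, ψ (σ n) a ≤ 0 := by
    intro n
    have h1 := (hψ (σ n)).2
    have h2 := hall (σ n)
    have h3 : ψ (σ n) p ≤ 1 := by
      have := (hψ (σ n)).le p
      rwa [hp] at this
    rw [map_sub, map_smul, smul_eq_mul] at h1
    have hc : (0 : ℝ) < 1 / (((σ n : ℕ) : ℝ) + 1) := by positivity
    have h4 : (1 / (((σ n : ℕ) : ℝ) + 1)) * ψ (σ n) a ≤ 0 := by linarith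
    by_contra hgt
    have := mul_pos hc (not_le.1 hgt)
    linarith
  have hlim' : Tendsto (fun n => ψ (σ n) a) atTop (𝓝 (ψ₀ a)) := by
    have : Continuous fun χ : StrongDual ℝ E => χ a := by fun_prop
    exact (this.tendsto ψ₀).comp hlim
  have := le_of_tendsto' hlim' hle
  linarith

end Conv

end Vale.Agent.Lib.P084.Cartan
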