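import Mathlib
import Vale.Agent.Lib.P084.Cartan.Convex

/-! A functional which is first order nonpositive along the sphere at `p`. -/

namespace Vale.Agent.Lib.P084.Cartan

open Set Metric Filter Topology
open Vale.Agent.Lib.P084 Vale.Agent.Lib.P084.Far

section Tri

variable {E : Type*} [NormedAddCommGroup E] [NormedSpace ℝ E]

lemma zero_of_quadratic {ν : StrongDual ℝ E} {C : ℝ} (h : ∀ᶠ w in 𝓝 (0 : E), ν w ≤ C * ‖w‖ ^ 2) :
    ν = 0 := by
  have key : ∀ a : E, ν a ≤ 0 := by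
    intro a
    by_contra hcon
    have hpos : 0 < ν a := not_le.1 hcon
    have hc : Tendsto (fun t : ℝ => t • a) (𝓝[>] 0) (𝓝 0) := by
      have : Continuous fun t : ℝ => t • a := by fun_prop
      have h2 := this.tendsto 0
      simp only [zero_smul] at h2
      exact h2.mono_left nhdsWithin_le_nhds
    have h1 := hc.eventually h
    have hsmall : ∀ᶠ t : ℝ in 𝓝[>] 0, t * (|C| * ‖a‖ ^ 2) < ν a := by
      have hc2 : Tendsto (fun t : ℝ => t * (|C| * ‖a‖ ^ 2)) (𝓝[>] 0) (𝓝 0) := by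
        have : Continuous fun t : ℝ => t * (|C| * ‖a‖ ^ 2) := by fun_prop
        have h2 := this.tendsto 0
        simp only [zero_mul] at h2
        exact h2.mono_left nhdsWithin_le_nhds
      exact hc2.eventually (gt_mem_nhds hpos)
    obtain ⟨t, ⟨h2, h3⟩, ht⟩ := ((h1.and hsmall).and self_mem_nhdsWithin).exists
    have ht0 : 0 < t := ht
    rw [map_smul, smul_eq_mul, norm_smul, Real.norm_of_nonneg ht0.le] at h2
    have h4 : C * (t * ‖a‖) ^ 2 ≤ |C| * (t * ‖a‖) ^ 2 :=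
      mul_le_mul_of_nonneg_right (le_abs_self _) (by positivity)
    have h5 : t * ν a ≤ t * (t * (|C| * ‖a‖ ^ 2)) := by nlinarith
    have h6 := le_of_mul_le_mul_left h5 ht0
    linarith
  ext a
  have h1 := key a
  have h2 := key (-a)
  rw [map_neg] at h2
  simp only [_root_.zero_apply]
  linarith

/-- A point of finite second difference has a unique norming functional. -/
theorem dif_of_reg {z : E} (hz : Reg z) {φ : StrongDual ℝ E} (hφ : Nrm φ z) : Dif φ z := by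
  refine ⟨hφ, fun ψ hψ => ?_⟩
  obtain ⟨C, hC⟩ := hz.upper hφ.1 hφ.2
  have : ψ - φ = 0 := by
    refine zero_of_quadratic (C := C) ?_
    filter_upwards [hC] with w hw
    have h1 := hψ.lower w
    simp only [_root_.sub_apply]
    linarith
  exact sub_eq_zero.1 this

/-- `ν` is first order nonpositive along the sphere at `p`. -/
def SubAt (ν : StrongDual ℝ E) (p : E) : Prop :=
  ∀ ε : ℝ, 0 < ε → ∃ δ : ℝ, 0 < δ ∧ ∀ y : E, ‖y‖ = 1 → ‖y - p‖ ≤ δ → ν (y - p) ≤ ε * ‖y - p‖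

lemma subAt_core {ν : StrongDual ℝ E} {p : E} (hp : ‖p‖ = 1) (h : SubAt ν p) (a : E) {η δ₀ : ℝ}
    (hη : 0 < η) (hδ₀ : 0 < δ₀) :
    ∃ δ : ℝ, 0 < δ ∧ δ ≤ δ₀ ∧ δ * ν a - (‖p + δ • a‖ - 1) * ν p ≤ η * δ := by
  obtain ⟨ε, hε⟩ : ∃ ε, ε = η / (2 * ‖a‖ + 1) := ⟨_, rfl⟩
  have hden : 0 < 2 * ‖a‖ + 1 := by positivity
  have hε0 : 0 < ε := by
    rw [hε]
    positivity
  obtain ⟨δ₁, hδ₁, hb⟩ := h ε hε0
  obtain ⟨δ, hδ⟩ : ∃ δ, δ = min δ₀ (min (1 / (2 * (‖a‖ + 1))) (δ₁ / (4 * (‖a‖ + 1)))) := ⟨_, rfl⟩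
  have hA : 0 < ‖a‖ + 1 := by positivity
  have hδ0 : 0 < δ := by
    rw [hδ]
    refine lt_min hδ₀ (lt_min (by positivity) (by positivity))
  have h1 : δ ≤ δ₀ := hδ ▸ min_le_left _ _
  have h2 : δ ≤ 1 / (2 * (‖a‖ + 1)) := by
    rw [hδ]
    exact (min_le_right _ _).trans (min_le_left _ _)
  have h3 : δ ≤ δ₁ / (4 * (‖a‖ + 1)) := by
    rw [hδ]
    exact (min_le_right _ _).trans (min_le_right _ _)
  have h2' : δ * (‖a‖ + 1) ≤ 1 / 2 := by
    rw [le_div_iff₀ (by positivity)] at h2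
    linarith
  have h3' : δ * (4 * (‖a‖ + 1)) ≤ δ₁ := by
    rwa [le_div_iff₀ (by positivity)] at h3
  refine ⟨δ, hδ0, h1, ?_⟩
  obtain ⟨r, hr⟩ : ∃ r, r = ‖p + δ • a‖ := ⟨_, rfl⟩
  have hsm : ‖δ • a‖ = δ * ‖a‖ := by rw [norm_smul, Real.norm_of_nonneg hδ0.le]
  have hr1 : r - 1 ≤ δ * ‖a‖ := by
    have := norm_add_le p (δ • a)
    rw [hp, hsm] at this
    linarith
  have hr2 : -(δ * ‖a‖) ≤ r - 1 := by
    have := norm_sub_norm_le p (-(δ • a))
    rw [hp, norm_neg, hsm, sub_neg_eq_add] at this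
    linarith
  have hδa : 0 ≤ δ * ‖a‖ := by positivity
  have hrpos : 1 / 2 ≤ r := by nlinarith
  have hr0 : 0 < r := by linarith
  obtain ⟨y, hy⟩ : ∃ y, y = r⁻¹ • (p + δ • a) := ⟨_, rfl⟩
  have hy1 : ‖y‖ = 1 := by
    rw [hy, norm_smul, norm_inv, Real.norm_of_nonneg hr0.le, ← hr, inv_mul_cancel₀ hr0.ne']
  have hye : y - p = r⁻¹ • (δ • a - (r - 1) • p) := by
    calc y - p = r⁻¹ • (p + δ • a) - r⁻¹ • (r • p) := by
          rw [hy, smul_smul, inv_mul_cancel₀ hr0.ne', one_smul]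
      _ = r⁻¹ • (p + δ • a - r • p) := (smul_sub _ _ _).symm
      _ = _ := by
          congr 1
          rw [sub_smul, one_smul]
          abel
  have hyn : ‖y - p‖ ≤ r⁻¹ * (2 * (δ * ‖a‖)) := by
    rw [hye, norm_smul, norm_inv, Real.norm_of_nonneg hr0.le]
    refine mul_le_mul_of_nonneg_left ?_ (by positivity)
    refine (norm_sub_le _ _).trans ?_
    rw [hsm, norm_smul, hp, mul_one, Real.norm_eq_abs]
    have := abs_le.2 ⟨hr2, hr1⟩
    linarith
  have hri : r⁻¹ ≤ 2 := by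
    rw [inv_le_comm₀ hr0 (by norm_num)]
    linarith
  have hyδ : ‖y - p‖ ≤ δ₁ := by
    refine hyn.trans ?_
    have h5 : r⁻¹ * (2 * (δ * ‖a‖)) ≤ 2 * (2 * (δ * ‖a‖)) :=
      mul_le_mul_of_nonneg_right hri (by positivity)
    nlinarith
  have hb1 := hb y hy1 hyδ
  have hb2 : ε * ‖y - p‖ ≤ ε * (r⁻¹ * (2 * (δ * ‖a‖))) :=
    mul_le_mul_of_nonneg_left hyn hε0.le
  have hb3 : ν (y - p) = r⁻¹ * (δ * ν a - (r - 1) * ν p) := by
    rw [hye, map_smul, map_sub, map_smul, map_smul, smul_eq_mul, smul_eq_mul, smul_eq_mul]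
  rw [hb3] at hb1
  have hb4 : r⁻¹ * (δ * ν a - (r - 1) * ν p) ≤ r⁻¹ * (ε * (2 * (δ * ‖a‖))) := by
    calc _ ≤ ε * (r⁻¹ * (2 * (δ * ‖a‖))) := hb1.trans hb2
      _ = _ := by ring
  have hb5 := le_of_mul_le_mul_left hb4 (inv_pos.2 hr0)
  have hb6 : ε * (2 * (δ * ‖a‖)) ≤ η * δ := by
    rw [hε, div_mul_eq_mul_div, div_le_iff₀ hden]
    nlinarith [mul_pos hη hδ0, norm_nonneg a]
  rw [← hr]
  linarith

/-- **Trichotomy.** -/
theorem subAt_tri [Nontrivial E] {ν : StrongDual ℝ E} {p : E} (hp : ‖p‖ = 1) (h : SubAt ν p) :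
    ν = 0 ∨ (∀ a, InP p a → 0 < ν a) ∨ (∀ a, InP p a → ν a < 0) := by
  obtain hc | hc | hc := lt_trichotomy (ν p) 0
  · -- negative value
    right; right
    obtain ⟨N, hN⟩ := exists_nrm p
    have key : ∀ a, ν a ≤ ν p * N a := by
      intro a
      refine le_of_forall_pos_le_add fun η hη => ?_
      obtain ⟨δ, hδ, -, hb⟩ := subAt_core hp h a hη one_pos
      have h1 := hN.lower (δ • a)
      rw [hp, map_smul, smul_eq_mul] at h1
      have h2 : (δ * N a) * (- ν p) ≤ (‖p + δ • a‖ - 1) * (- ν p) :=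
        mul_le_mul_of_nonneg_right (by linarith) (by linarith)
      have h3 : δ * ν a ≤ δ * (ν p * N a + η) := by nlinarith
      exact le_of_mul_le_mul_left h3 hδ
    have key2 : ∀ a, ν a = ν p * N a := by
      intro a
      have h1 := key a
      have h2 := key (-a)
      rw [map_neg, map_neg] at h2
      linarith
    rintro a ⟨ε, hε, hlt⟩
    rw [key2]
    have h1 := hN.le (p - ε • a)
    rw [map_sub, map_smul, smul_eq_mul, hN.2, hp] at h1
    have h3 : 0 < ε * N a := by linarith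
    have h4 : 0 < N a := (pos_iff_pos_of_mul_pos h3).1 hε
    exact mul_neg_of_neg_of_pos hc h4
  · -- zero value
    left
    have key : ∀ a, ν a ≤ 0 := by
      intro a
      refine le_of_forall_pos_le_add fun η hη => ?_
      obtain ⟨δ, hδ, -, hb⟩ := subAt_core hp h a hη one_pos
      rw [hc, mul_zero, sub_zero] at hb
      have h3 : δ * ν a ≤ δ * (0 + η) := by linarith
      exact le_of_mul_le_mul_left h3 hδ
    ext a
    have h1 := key a
    have h2 := key (-a)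
    rw [map_neg] at h2
    simp only [_root_.zero_apply]
    linarith
  · -- positive value
    right; left
    have key : ∀ a, ν a ≤ ν p * ‖a‖ := by
      intro a
      refine le_of_forall_pos_le_add fun η hη => ?_
      obtain ⟨δ, hδ, -, hb⟩ := subAt_core hp h a hη one_pos
      have h1 : ‖p + δ • a‖ - 1 ≤ δ * ‖a‖ := by
        have := norm_add_le p (δ • a)
        rw [hp, norm_smul, Real.norm_of_nonneg hδ.le] at this
        linarith
      have h2 : (‖p + δ • a‖ - 1) * ν p ≤ (δ * ‖a‖) * ν p :=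
        mul_le_mul_of_nonneg_right h1 hc.le
      have h3 : δ * ν a ≤ δ * (ν p * ‖a‖ + η) := by nlinarith
      exact le_of_mul_le_mul_left h3 hδ
    rintro a ⟨ε, hε, hlt⟩
    have h1 := key (p - ε • a)
    rw [map_sub, map_smul, smul_eq_mul] at h1
    have h2 : ν p * ‖p - ε • a‖ < ν p * 1 := mul_lt_mul_of_pos_left hlt hc
    have h3 : 0 < ε * ν a := by linarith
    exact (pos_iff_pos_of_mul_pos h3).1 hε

/-- A functional first order nonpositive along the sphere at `p`, nonpositive somewhere and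
nonnegative somewhere in the open cone of chords, vanishes. -/
theorem subAt_zero [Nontrivial E] {ν : StrongDual ℝ E} {p a b : E} (hp : ‖p‖ = 1)
    (h : SubAt ν p) (ha : InP p a) (hb : InP p b) (hna : ν a ≤ 0) (hnb : 0 ≤ ν b) : ν = 0 := by
  obtain h1 | h1 | h1 := subAt_tri hp h
  · exact h1
  · exact absurd (h1 a ha) (not_lt.2 hna)
  · exact absurd (h1 b hb) (not_lt.2 hnb)

end Tri

end Vale.Agent.Lib.P084.Cartan
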