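import Mathlib
import Vale.Agent.Lib.P084.Cartan.Tri

/-! A Cartan type rigidity statement: maps of a neighbourhood of `p` in the sphere into itself
which preserve `‖y + w‖` and the unique norming functionals are the identity near `p`. -/

namespace Vale.Agent.Lib.P084.Cartan

open Set Metric Filter Topology
open Vale.Agent.Lib.P084 Vale.Agent.Lib.P084.Far

section Core

variable {E : Type*} [NormedAddCommGroup E] [NormedSpace ℝ E]

/-- The unit vectors within `r` of `p`. -/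
def In (p : E) (r : ℝ) (y : E) : Prop := ‖y‖ = 1 ∧ ‖y - p‖ ≤ r

/-- Mutually inverse maps of the unit vectors near `p`, fixing `p`, preserving the distance to `p`,
the norm of sums and the unique norming functionals. -/
structure Gam (p : E) (r : ℝ) (f f' : E → E) : Prop where
  unit : ∀ y, In p r y → ‖f y‖ = 1
  unit' : ∀ y, In p r y → ‖f' y‖ = 1
  dist : ∀ y, In p r y → ‖f y - p‖ = ‖y - p‖
  dist' : ∀ y, In p r y → ‖f' y - p‖ = ‖y - p‖
  left : ∀ y, In p r y → f' (f y) = y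
  right : ∀ y, In p r y → f (f' y) = y
  fix : f p = p
  add : ∀ y w, In p r y → In p r w → ‖f y + f w‖ = ‖y + w‖
  dif : ∀ φ w, In p r w → Dif φ (p + w) → Dif φ (p + f w)
  dif' : ∀ φ w, In p r w → Dif φ (p + w) → Dif φ (p + f' w)

variable {p : E} {r : ℝ} {f f' k k' : E → E}

lemma In.mono {s : ℝ} {y : E} (h : In p s y) (hs : s ≤ r) : In p r y := ⟨h.1, h.2.trans hs⟩

lemma Gam.mem (H : Gam p r f f') {s : ℝ} (hs : s ≤ r) {y : E} (hy : In p s y) : In p s (f y) :=
  ⟨H.unit y (hy.mono hs), by rw [H.dist y (hy.mono hs)]; exact hy.2⟩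

lemma Gam.mem' (H : Gam p r f f') {s : ℝ} (hs : s ≤ r) {y : E} (hy : In p s y) : In p s (f' y) :=
  ⟨H.unit' y (hy.mono hs), by rw [H.dist' y (hy.mono hs)]; exact hy.2⟩

lemma Gam.symm (hp : ‖p‖ = 1) (hr : 0 ≤ r) (H : Gam p r f f') : Gam p r f' f where
  unit := H.unit'
  unit' := H.unit
  dist := H.dist'
  dist' := H.dist
  left := H.right
  right := H.left
  fix := by
    have h1 : In p r p := ⟨hp, by simpa using hr⟩
    have := H.left p h1
    rwa [H.fix] at this
  add := by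
    intro y w hy hw
    have h1 := H.add (f' y) (f' w) (H.mem' le_rfl hy) (H.mem' le_rfl hw)
    rw [H.right y hy, H.right w hw] at h1
    exact h1.symm
  dif := H.dif'
  dif' := H.dif

lemma Gam.comp (H : Gam p r f f') (K : Gam p r k k') : Gam p r (f ∘ k) (k' ∘ f') where
  unit := fun y hy => H.unit _ (K.mem le_rfl hy)
  unit' := fun y hy => K.unit' _ (H.mem' le_rfl hy)
  dist := fun y hy => by
    simp only [Function.comp]
    rw [H.dist _ (K.mem le_rfl hy), K.dist _ hy]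
  dist' := fun y hy => by
    simp only [Function.comp]
    rw [K.dist' _ (H.mem' le_rfl hy), H.dist' _ hy]
  left := fun y hy => by
    simp only [Function.comp]
    rw [H.left _ (K.mem le_rfl hy), K.left _ hy]
  right := fun y hy => by
    simp only [Function.comp]
    rw [K.right _ (H.mem' le_rfl hy), H.right _ hy]
  fix := by
    simp only [Function.comp]
    rw [K.fix, H.fix]
  add := fun y w hy hw => by
    simp only [Function.comp]
    rw [H.add _ _ (K.mem le_rfl hy) (K.mem le_rfl hw), K.add _ _ hy hw]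
  dif := fun φ w hw hd => H.dif φ _ (K.mem le_rfl hw) (K.dif φ w hw hd)
  dif' := fun φ w hw hd => K.dif' φ _ (H.mem' le_rfl hw) (H.dif' φ w hw hd)

lemma Gam.id_id : Gam p r (id : E → E) id where
  unit := fun _ hy => hy.1
  unit' := fun _ hy => hy.1
  dist := fun _ _ => rfl
  dist' := fun _ _ => rfl
  left := fun _ _ => rfl
  right := fun _ _ => rfl
  fix := rfl
  add := fun _ _ _ _ => rfl
  dif := fun _ _ _ h => h
  dif' := fun _ _ _ h => h

lemma Gam.iter (H : Gam p r f f') (n : ℕ) : Gam p r (f^[n]) (f'^[n]) := by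
  induction n with
  | zero => exact Gam.id_id
  | succ n ih =>
    rw [Function.iterate_succ' f, Function.iterate_succ f']
    exact H.comp ih

lemma exists_delta {ι : Type*} [Fintype ι] (d : ι → ℝ) (hd : ∀ i, 0 < d i) {r : ℝ} (hr : 0 < r) :
    ∃ δ, 0 < δ ∧ δ ≤ r ∧ ∀ i, δ ≤ d i := by
  have hs : 0 < ∑ i, (d i)⁻¹ + 1 := by
    have : 0 ≤ ∑ i, (d i)⁻¹ := Finset.sum_nonneg fun i _ => (inv_pos.2 (hd i)).le
    linarith
  refine ⟨min r (∑ i, (d i)⁻¹ + 1)⁻¹, lt_min hr (inv_pos.2 hs), min_le_left _ _, fun i => ?_⟩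
  refine (min_le_right _ _).trans ?_
  rw [inv_le_comm₀ hs (hd i)]
  have : (d i)⁻¹ ≤ ∑ i, (d i)⁻¹ :=
    Finset.single_le_sum (f := fun i => (d i)⁻¹) (fun i _ => (inv_pos.2 (hd i)).le)
      (Finset.mem_univ i)
  linarith

variable {ι : Type*} [Fintype ι] {w : ι → E} {φ : ι → StrongDual ℝ E}

/-- A spanning family of functionals with unique norming points near `p`. -/
structure Fam (p : E) (r : ℝ) (w : ι → E) (φ : ι → StrongDual ℝ E) : Prop where
  mem : ∀ i, In p r (w i)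
  dif : ∀ i, Dif (φ i) (p + w i)
  span : ∀ v, (∀ i, φ i v = 0) → v = 0

lemma Fam.const [FiniteDimensional ℝ E] (hF : Fam p r w φ) :
    ∃ C : ℝ, 0 < C ∧ ∀ v : E, ∀ t : ℝ, 0 ≤ t → (∀ i, |φ i v| ≤ t) → ‖v‖ ≤ C * t := by
  let M : E →ₗ[ℝ] (ι → ℝ) := LinearMap.pi fun i => ((φ i : StrongDual ℝ E) : E →ₗ[ℝ] ℝ)
  have hM : ∀ v i, M v i = φ i v := fun v i => rfl
  have hker : LinearMap.ker M = ⊥ := by
    rw [LinearMap.ker_eq_bot']
    intro v hv
    refine hF.span v fun i => ?_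
    rw [← hM, hv]
    rfl
  obtain ⟨K, hK, hanti⟩ := LinearMap.exists_antilipschitzWith M hker
  have hK' : (0 : ℝ) < K := hK
  refine ⟨K, hK', fun v t ht hv => ?_⟩
  have h1 := ZeroHomClass.bound_of_antilipschitz M hanti v
  refine h1.trans (mul_le_mul_of_nonneg_left ?_ hK'.le)
  rw [pi_norm_le_iff_of_nonneg ht]
  intro i
  rw [hM, Real.norm_eq_abs]
  exact hv i

variable [FiniteDimensional ℝ E] [Nontrivial E]

/-- Uniform first order bound for the displacement. -/
lemma Fam.disp (hF : Fam p r w φ) (hp : ‖p‖ = 1) (hr : 0 < r) {ε : ℝ} (hε : 0 < ε) :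
    ∃ δ, 0 < δ ∧ δ ≤ r ∧ ∀ f f', Gam p r f f' → ∀ y, In p δ y → ‖f y - y‖ ≤ ε * ‖y - p‖ := by
  obtain ⟨C, hC, hCb⟩ := hF.const
  have hε' : 0 < ε / C := div_pos hε hC
  have hfo := fun i => (hF.dif i).first_order hε'
  choose d hd hdb using hfo
  obtain ⟨δ, hδ, hδr, hδd⟩ := exists_delta d hd hr
  refine ⟨δ, hδ, hδr, ?_⟩
  have one_sided : ∀ f f', Gam p r f f' → ∀ y, In p δ y → ∀ i,
      φ i (f y - y) ≤ (ε / C) * ‖y - p‖ := by
    intro f f' H y hy i
    have hyr : In p r y := hy.mono hδr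
    have hwr := hF.mem i
    have h1 := ((H.dif (φ i) (w i) hwr (hF.dif i)).1).lower (f y - p)
    have e1 : p + f (w i) + (f y - p) = f y + f (w i) := by abel
    rw [e1, H.add y (w i) hyr hwr] at h1
    have h2 : ‖p + f (w i)‖ = ‖p + w i‖ := by
      have hpr : In p r p := ⟨hp, by simpa using hr.le⟩
      have := H.add p (w i) hpr hwr
      rwa [H.fix] at this
    rw [h2] at h1
    have h3 := hdb i (y - p) (hy.2.trans (hδd i))
    have e2 : p + w i + (y - p) = y + w i := by abel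
    rw [e2] at h3
    have e3 : φ i (f y - y) = φ i (f y - p) - φ i (y - p) := by
      rw [← map_sub]
      congr 1
      abel
    rw [e3]
    linarith
  intro f f' H y hy
  have hyr : In p r y := hy.mono hδr
  have h1 : ∀ i, |φ i (f y - y)| ≤ (ε / C) * ‖y - p‖ := by
    intro i
    rw [abs_le]
    refine ⟨?_, one_sided f f' H y hy i⟩
    have h2 := one_sided f' f (H.symm hp hr.le) (f y) (H.mem hδr hy) i
    rw [H.left y hyr, H.dist y hyr] at h2
    have e : φ i (y - f y) = - φ i (f y - y) := by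
      rw [← map_neg, neg_sub]
    rw [e] at h2
    linarith
  have h2 := hCb _ _ (by positivity) h1
  have e : C * (ε / C * ‖y - p‖) = ε * ‖y - p‖ := by
    field_simp
  rwa [e] at h2

/-- The orbit of `w i`, shifted by `p`. -/
def Orb (p : E) (r : ℝ) (w : ι → E) (i : ι) : Set E :=
  {z | ∃ f f', Gam p r f f' ∧ z = p + f (w i)}

lemma Fam.orb_facts (hF : Fam p r w φ) (hp : ‖p‖ = 1) (hr : 0 < r) (i : ι) :
    ∀ z ∈ closure (Orb p r w i), Nrm (φ i) z ∧ ‖z‖ = ‖p + w i‖ ∧ ‖z - (p + p)‖ ≤ r := by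
  intro z hz
  have hcl : IsClosed {z : E | (‖φ i‖ ≤ 1 ∧ φ i z = ‖z‖) ∧ ‖z‖ = ‖p + w i‖ ∧ ‖z - (p + p)‖ ≤ r} := by
    have h1 : IsClosed {z : E | φ i z = ‖z‖} := isClosed_eq (by fun_prop) (by fun_prop)
    have h2 : IsClosed {z : E | ‖z‖ = ‖p + w i‖} := isClosed_eq (by fun_prop) (by fun_prop)
    have h3 : IsClosed {z : E | ‖z - (p + p)‖ ≤ r} := isClosed_le (by fun_prop) (by fun_prop)
    have h4 : IsClosed {z : E | ‖φ i‖ ≤ 1} := isClosed_const
    exact (h4.inter h1).inter (h2.inter h3)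
  refine closure_minimal ?_ hcl hz
  rintro z ⟨f, f', H, rfl⟩
  have hwr := hF.mem i
  have hpr : In p r p := ⟨hp, by simpa using hr.le⟩
  refine ⟨(H.dif (φ i) (w i) hwr (hF.dif i)).1, ?_, ?_⟩
  · have := H.add p (w i) hpr hwr
    rwa [H.fix] at this
  · have e : p + f (w i) - (p + p) = f (w i) - p := by abel
    rw [e, H.dist _ hwr]
    exact hwr.2

lemma Fam.orb_compact (hF : Fam p r w φ) (hp : ‖p‖ = 1) (hr : 0 < r) (i : ι) :
    IsCompact (closure (Orb p r w i)) := by
  haveI : ProperSpace E := FiniteDimensional.proper ℝ E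
  refine (isCompact_closedBall (p + p) r).of_isClosed_subset isClosed_closure fun z hz => ?_
  rw [mem_closedBall, dist_eq_norm]
  exact (hF.orb_facts hp hr i z hz).2.2

/-- All limit points of the orbit keep the unique norming functional. -/
theorem Fam.dif_closure (hF : Fam p r w φ) (hp : ‖p‖ = 1) (hr : 0 < r) (hr1 : r < 1) (i : ι) :
    ∀ z ∈ closure (Orb p r w i), Dif (φ i) z := by
  intro z hz
  obtain ⟨hN, hzn, hzr⟩ := hF.orb_facts hp hr i z hz
  refine ⟨hN, fun ψ hψ => ?_⟩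
  have hinP : InP p z := by
    refine ⟨1 / 2, by norm_num, ?_⟩
    have e : p - (1 / 2 : ℝ) • z = (-(1 / 2 : ℝ)) • (z - (p + p)) := by
      module
    rw [e, norm_smul]
    norm_num
    linarith
  have hsub : SubAt (ψ - φ i) p := by
    intro ε hε
    obtain ⟨δ₁, hδ₁, hδ₁r, hb₁⟩ := hF.disp hp hr (ε := ε / 2) (by positivity)
    obtain ⟨δ₂, hδ₂, hb₂⟩ := (hF.dif i).first_order (ε := ε / 2) (by positivity)
    obtain ⟨δ, hδ⟩ : ∃ δ, δ = min δ₁ δ₂ := ⟨_, rfl⟩
    have h1 : δ ≤ δ₁ := hδ ▸ min_le_left _ _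
    have h2 : δ ≤ δ₂ := hδ ▸ min_le_right _ _
    have h0 : 0 < δ := by
      rw [hδ]
      exact lt_min hδ₁ hδ₂
    refine ⟨δ, h0, fun y hy1 hyδ => ?_⟩
    have hy : In p δ y := ⟨hy1, hyδ⟩
    have hyr : In p r y := hy.mono (h1.trans hδ₁r)
    -- the bound along the orbit
    have hbound : ‖y + (z - p)‖ ≤ ‖p + w i‖ + φ i (y - p) + ε * ‖y - p‖ := by
      have hcl : IsClosed {z : E | ‖y + (z - p)‖ ≤ ‖p + w i‖ + φ i (y - p) + ε * ‖y - p‖} :=
        isClosed_le (by fun_prop) (by fun_prop)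
      refine closure_minimal ?_ hcl hz
      rintro z ⟨f, f', H, rfl⟩
      have hwr := hF.mem i
      have e1 : y + (p + f (w i) - p) = y + f (w i) := by abel
      show ‖y + (p + f (w i) - p)‖ ≤ _
      rw [e1]
      have h3 := H.add (f' y) (w i) (H.mem' le_rfl hyr) hwr
      rw [H.right y hyr] at h3
      rw [h3]
      have h4 := hb₂ (f' y - p) (by
        rw [H.dist' y hyr]
        exact hyδ.trans h2)
      have e2 : p + w i + (f' y - p) = f' y + w i := by abel
      rw [e2, H.dist' y hyr] at h4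
      have h5 := hb₁ f' f (H.symm hp hr.le) y (hy.mono h1 |> fun h => ⟨h.1, h.2⟩)
      have h6 : φ i (f' y - p) ≤ φ i (y - p) + (ε / 2) * ‖y - p‖ := by
        have e : φ i (f' y - p) = φ i (y - p) + φ i (f' y - y) := by
          rw [← map_add]
          congr 1
          abel
        rw [e]
        have := (hF.dif i).1.le (f' y - y)
        linarith
      have e3 : ε * ‖y - p‖ = (ε / 2) * ‖y - p‖ + (ε / 2) * ‖y - p‖ := by ring
      linarith
    have hl := hψ.lower (y - p)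
    have e4 : z + (y - p) = y + (z - p) := by abel
    rw [e4, hzn] at hl
    simp only [_root_.sub_apply]
    linarith
  have hν : (ψ - φ i) z = 0 := by
    simp only [_root_.sub_apply]
    rw [hψ.2, hN.2, sub_self]
  have := subAt_zero hp hsub hinP hinP hν.le hν.ge
  exact sub_eq_zero.1 this

/-- Uniform Lipschitz bound for the displacements. -/
theorem Fam.lip (hF : Fam p r w φ) (hp : ‖p‖ = 1) (hr : 0 < r) (hr1 : r < 1) :
    ∃ δ, 0 < δ ∧ δ ≤ r ∧ ∀ f f', Gam p r f f' → ∀ y₁ y₂, In p δ y₁ → In p δ y₂ →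
      ‖(f y₁ - y₁) - (f y₂ - y₂)‖ ≤ (1 / 2) * ‖y₁ - y₂‖ := by
  obtain ⟨C, hC, hCb⟩ := hF.const
  have hε : 0 < 1 / (8 * C) := by positivity
  have hst := fun i => strict_compact (hF.orb_compact hp hr i) (hF.dif_closure hp hr hr1 i) hε
  choose d hd hdb using hst
  obtain ⟨δ, hδ, hδr, hδd⟩ := exists_delta d hd hr
  refine ⟨δ, hδ, hδr, fun f f' H y₁ y₂ hy₁ hy₂ => ?_⟩
  have hr₁ : In p r y₁ := hy₁.mono hδr
  have hr₂ : In p r y₂ := hy₂.mono hδr
  obtain ⟨D, hD⟩ : ∃ D, D = (f y₁ - y₁) - (f y₂ - y₂) := ⟨_, rfl⟩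
  obtain ⟨e, he⟩ : ∃ e, e = ‖y₁ - y₂‖ := ⟨_, rfl⟩
  have he0 : 0 ≤ e := he ▸ norm_nonneg _
  have hfd : ‖f y₁ - f y₂‖ ≤ e + ‖D‖ := by
    have e1 : f y₁ - f y₂ = (y₁ - y₂) + D := by
      rw [hD]
      abel
    rw [e1, he]
    exact norm_add_le _ _
  have hall : ∀ i, |φ i D| ≤ (1 / (8 * C)) * (2 * e + ‖D‖) := by
    intro i
    have hwr := hF.mem i
    have hz₁ : p + f (w i) ∈ closure (Orb p r w i) := subset_closure ⟨f, f', H, rfl⟩
    have hz₀ : p + w i ∈ closure (Orb p r w i) :=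
      subset_closure ⟨id, id, Gam.id_id, rfl⟩
    have s1 := hdb i _ hz₁ (f y₁ - p) (f y₂ - p)
      (by rw [H.dist _ hr₁]; exact hy₁.2.trans (hδd i))
      (by rw [H.dist _ hr₂]; exact hy₂.2.trans (hδd i))
    have s0 := hdb i _ hz₀ (y₁ - p) (y₂ - p) (hy₁.2.trans (hδd i)) (hy₂.2.trans (hδd i))
    have e1 : ∀ a : E, p + f (w i) + (f a - p) = f a + f (w i) := fun a => by abel
    have e0 : ∀ a : E, p + w i + (a - p) = a + w i := fun a => by abel
    rw [e1, e1, H.add _ _ hr₁ hwr, H.add _ _ hr₂ hwr] at s1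
    rw [e0, e0] at s0
    have e2 : f y₁ - p - (f y₂ - p) = f y₁ - f y₂ := by abel
    have e3 : y₁ - p - (y₂ - p) = y₁ - y₂ := by abel
    rw [e2] at s1
    rw [e3, ← he] at s0
    have e4 : φ i D = φ i (f y₁ - f y₂) - φ i (y₁ - y₂) := by
      rw [← map_sub, hD]
      congr 1
      abel
    rw [e4]
    have hq : (0 : ℝ) ≤ 1 / (8 * C) := by positivity
    have s2 : 1 / (8 * C) * ‖f y₁ - f y₂‖ ≤ 1 / (8 * C) * (e + ‖D‖) :=
      mul_le_mul_of_nonneg_left hfd hq
    rw [abs_le] at s0 s1 ⊢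
    constructor <;> nlinarith [s0.1, s0.2, s1.1, s1.2]
  have h2 := hCb D _ (by positivity) hall
  have e5 : C * (1 / (8 * C) * (2 * e + ‖D‖)) = (2 * e + ‖D‖) / 8 := by
    field_simp
  rw [e5] at h2
  rw [← hD, ← he]
  linarith

/-- **Cartan type rigidity.** -/
theorem Fam.fixed (hF : Fam p r w φ) (hp : ‖p‖ = 1) (hr : 0 < r) (hr1 : r < 1) :
    ∃ δ, 0 < δ ∧ δ ≤ r ∧ ∀ f f', Gam p r f f' → ∀ y, In p δ y → f y = y := by
  obtain ⟨δ, hδ, hδr, hL⟩ := hF.lip hp hr hr1
  refine ⟨δ, hδ, hδr, ?_⟩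
  -- the contraction of the bound for the displacement
  have step : ∀ M : ℝ, (∀ f f', Gam p r f f' → ∀ y, In p δ y → ‖f y - y‖ ≤ M) →
      ∀ f f', Gam p r f f' → ∀ y, In p δ y → ‖f y - y‖ ≤ M / 2 := by
    intro M hM f f' H y hy
    have hM0 : 0 ≤ M := (norm_nonneg _).trans (hM f f' H y hy)
    have tele : ∀ n : ℕ, ‖f^[n] y - y - (n : ℝ) • (f y - y)‖ ≤ (n : ℝ) * (M / 2) := by
      intro n
      induction n with
      | zero => simp
      | succ n ih =>
        have hn : In p δ (f^[n] y) := by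
          have := (H.iter n).mem hδr hy
          exact this
        have hb := hL f f' H (f^[n] y) y hn hy
        have hd := hM _ _ (H.iter n) y hy
        have e : f^[n + 1] y - y - ((n + 1 : ℕ) : ℝ) • (f y - y) =
            (f^[n] y - y - (n : ℝ) • (f y - y)) + ((f (f^[n] y) - f^[n] y) - (f y - y)) := by
          rw [Function.iterate_succ_apply' f n y]
          push_cast
          rw [add_smul, one_smul]
          abel
        rw [e]
        refine (norm_add_le _ _).trans ?_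
        push_cast
        have hq : (1 / 2 : ℝ) * ‖f^[n] y - y‖ ≤ (1 / 2) * M :=
          mul_le_mul_of_nonneg_left hd (by norm_num)
        linarith
    refine le_of_forall_pos_le_add fun η hη => ?_
    obtain ⟨n, hn⟩ := exists_nat_gt (M / η)
    have hn0 : (0 : ℝ) < n := lt_of_le_of_lt (by positivity) hn
    have h1 := tele n
    have h2 := hM _ _ (H.iter n) y hy
    have h3 : (n : ℝ) * ‖f y - y‖ ≤ M + (n : ℝ) * (M / 2) := by
      have e1 : (n : ℝ) * ‖f y - y‖ = ‖(n : ℝ) • (f y - y)‖ := by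
        rw [norm_smul, Real.norm_of_nonneg hn0.le]
      have e2 : (n : ℝ) • (f y - y) = (f^[n] y - y) - (f^[n] y - y - (n : ℝ) • (f y - y)) := by
        abel
      rw [e1, e2]
      refine (norm_sub_le _ _).trans ?_
      linarith
    have h4 : M < (n : ℝ) * η := by
      rwa [div_lt_iff₀ hη] at hn
    have h5 : (n : ℝ) * ‖f y - y‖ ≤ (n : ℝ) * (M / 2 + η) := by
      nlinarith
    exact le_of_mul_le_mul_left h5 hn0
  have all : ∀ n : ℕ, ∀ f f', Gam p r f f' → ∀ y, In p δ y → ‖f y - y‖ ≤ 2 * δ / 2 ^ n := by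
    intro n
    induction n with
    | zero =>
      intro f f' H y hy
      have h1 : ‖f y - p‖ ≤ δ := by
        rw [H.dist y (hy.mono hδr)]
        exact hy.2
      have h2 : ‖f y - y‖ ≤ ‖f y - p‖ + ‖y - p‖ := by
        have e : f y - y = (f y - p) - (y - p) := by abel
        rw [e]
        exact norm_sub_le _ _
      have := hy.2
      simp only [pow_zero, div_one]
      linarith
    | succ n ih =>
      intro f f' H y hy
      have := step _ ih f f' H y hy
      rw [pow_succ, ← div_div]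
      exact this
  intro f f' H y hy
  have h0 : ‖f y - y‖ ≤ 0 := by
    refine le_of_tendsto_of_tendsto tendsto_const_nhds (?_ : Tendsto (fun n : ℕ => 2 * δ / 2 ^ n)
      atTop (𝓝 0)) (Eventually.of_forall fun n => all n f f' H y hy)
    have := (tendsto_pow_atTop_nhds_zero_of_lt_one (r := (1 / 2 : ℝ)) (by norm_num)
      (by norm_num)).const_mul (2 * δ)
    simp only [mul_zero] at this
    refine this.congr fun n => ?_
    rw [one_div, inv_pow, div_eq_mul_inv]
  exact sub_eq_zero.1 (norm_le_zero_iff.1 h0)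

end Core

end Vale.Agent.Lib.P084.Cartan
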