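import Mathlib
import Vale.Agent.Lib.P084.Cartan.Core
import Vale.Agent.Lib.P084.Far.Final

/-! Basic facts about the exact relation at a point of the sphere. -/

namespace Vale.Agent.Lib.P084.Cartan

open Set Metric Filter Topology
open Vale.Agent.Lib.P084 Vale.Agent.Lib.P084.Far

section Family

variable {V : Type*} [NormedAddCommGroup V] [NormedSpace ℝ V] [FiniteDimensional ℝ V]

/-- A separating set of functionals contains a finite separating subset. -/
lemma exists_finset (B : Set (StrongDual ℝ V)) (hB : ∀ v, (∀ Φ ∈ B, Φ v = 0) → v = 0) :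
    ∃ s : Finset (StrongDual ℝ V), (∀ Φ ∈ s, Φ ∈ B) ∧ ∀ v, (∀ Φ ∈ s, Φ v = 0) → v = 0 := by
  classical
  obtain ⟨b, hbB, hbspan, hbind⟩ := exists_linearIndependent ℝ B
  have hfin : b.Finite := hbind.finite
  refine ⟨hfin.toFinset, fun Φ hΦ => hbB (hfin.mem_toFinset.1 hΦ), fun v hv => hB v fun Φ hΦ => ?_⟩
  have hmem : Φ ∈ Submodule.span ℝ b := by
    rw [hbspan]
    exact Submodule.subset_span hΦ
  refine Submodule.span_induction (p := fun Ψ _ => Ψ v = 0) ?_ ?_ ?_ ?_ hmem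
  · intro Ψ hΨ
    exact hv Ψ (hfin.mem_toFinset.2 hΨ)
  · simp
  · intro a c _ _ ha hc
    simp [ha, hc]
  · intro r a _ ha
    simp [ha]

/-- A finite separating family of functionals bounds the norm. -/
lemma finset_const (s : Finset (StrongDual ℝ V)) (hs : ∀ v, (∀ Φ ∈ s, Φ v = 0) → v = 0) :
    ∃ C : ℝ, 0 < C ∧ ∀ v : V, ∀ t : ℝ, 0 ≤ t → (∀ Φ ∈ s, |Φ v| ≤ t) → ‖v‖ ≤ C * t := by
  let M : V →ₗ[ℝ] (s → ℝ) := LinearMap.pi fun i => ((i : StrongDual ℝ V) : V →ₗ[ℝ] ℝ)
  have hM : ∀ v i, M v i = (i : StrongDual ℝ V) v := fun v i => rfl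
  have hker : LinearMap.ker M = ⊥ := by
    rw [LinearMap.ker_eq_bot']
    intro v hv
    refine hs v fun Φ hΦ => ?_
    have := congrFun hv ⟨Φ, hΦ⟩
    rw [hM] at this
    exact this
  obtain ⟨K, hK, hanti⟩ := LinearMap.exists_antilipschitzWith M hker
  have hK' : (0 : ℝ) < K := hK
  refine ⟨K, hK', fun v t ht hv => ?_⟩
  have h1 := ZeroHomClass.bound_of_antilipschitz M hanti v
  refine h1.trans (mul_le_mul_of_nonneg_left ?_ hK'.le)
  rw [pi_norm_le_iff_of_nonneg ht]
  intro i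
  rw [hM, Real.norm_eq_abs]
  exact hv i i.2

end Family

section Exact

variable {X Y : Type*} [NormedAddCommGroup X] [NormedSpace ℝ X]
  [NormedAddCommGroup Y] [NormedSpace ℝ Y] {g : X → Y} {h : Y → X}

/-- The exact relation at `p`. -/
def Exact (g : X → Y) (p : X) (L : X →L[ℝ] Y) : Prop :=
  ∀ u φ Φ, IsChord g p u φ Φ → ∀ z, Φ (L z) = φ z

/-- The exact relation at `p`, together with an inverse of the linear map. -/
structure Ex (g : X → Y) (p : X) (L : X →L[ℝ] Y) (L' : Y →L[ℝ] X) : Prop where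
  unit : ‖p‖ = 1
  ex : Exact g p L
  li : ∀ x, L' (L x) = x
  ri : ∀ y, L (L' y) = y

variable [FiniteDimensional ℝ X] [FiniteDimensional ℝ Y] [Nontrivial X] [Nontrivial Y]

/-- Exact maps are invertible. -/
lemma exists_ex (H : SphereIso g h) {p : X} (hp : ‖p‖ = 1) {L : X →L[ℝ] Y} (hL : Exact g p L) :
    ∃ L' : Y →L[ℝ] X, Ex g p L L' := by
  have hinj : Function.Injective L := by
    rw [injective_iff_map_eq_zero]
    intro v hv
    refine span_X H hp fun u φ Φ hc => ?_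
    rw [← hL u φ Φ hc v, hv, map_zero]
  have hsurj : Function.Surjective L :=
    (LinearMap.injective_iff_surjective_of_finrank_eq_finrank (f := (L : X →ₗ[ℝ] Y))
      (finrank_eq H)).1 hinj
  let e : X ≃L[ℝ] Y := (LinearEquiv.ofBijective (L : X →ₗ[ℝ] Y) ⟨hinj, hsurj⟩).toContinuousLinearEquiv
  have he : ∀ x, e x = L x := fun x => rfl
  refine ⟨(e.symm : Y →L[ℝ] X), hp, hL, fun x => ?_, fun y => ?_⟩
  · rw [← he]
    exact e.symm_apply_apply x
  · have := e.apply_symm_apply y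
    rwa [he] at this

/-- The chords of the inverse. -/
lemma IsChord.swap (H : SphereIso g h) {p : X} (hp : ‖p‖ = 1) {v : Y} {Φ : StrongDual ℝ Y}
    {φ : StrongDual ℝ X} (hc : IsChord h (g p) v Φ φ) : IsChord g p (h v) φ Φ := by
  have hv := hc.unit
  have e1 : h (g p) = p := H.left p hp
  have e2 : g (h v) = v := H.right v hv
  refine ⟨H.map_h v hv, ?_, ?_, ?_, hc.Φle, ?_, hc.φle, ?_⟩
  · have := hc.mid
    have h2 := norm_add_image H hp (H.map_h v hv)
    rw [e2] at h2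
    rwa [← h2]
  · have := hc.regY
    rwa [e1] at this
  · rw [e2]
    exact hc.regX
  · have := hc.Φval
    rwa [e1] at this
  · rw [e2]
    exact hc.φval

lemma Ex.symm (H : SphereIso g h) {p : X} {L : X →L[ℝ] Y} {L' : Y →L[ℝ] X} (hE : Ex g p L L') :
    Ex h (g p) L' L := by
  refine ⟨H.map_g p hE.unit, fun v Φ φ hc z => ?_, hE.ri, hE.li⟩
  have := hE.ex (h v) φ Φ (IsChord.swap H hE.unit hc) (L' z)
  rw [hE.ri] at this
  exact this.symm

variable {p : X} {L : X →L[ℝ] Y} {L' : Y →L[ℝ] X}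

lemma Ex.inP_image (H : SphereIso g h) (hE : Ex g p L L') {a : X} (ha : InP p a) :
    InP (g p) (L a) := by
  obtain ⟨ε, hε, hlt⟩ := ha
  have hE' := hE.symm H
  refine transfer_inP H.symm hE'.unit hE'.ex hε ?_
  rw [hE.li, H.left p hE.unit]
  exact hlt

lemma Ex.inP_of_image (H : SphereIso g h) (hE : Ex g p L L') {b : Y} (hb : InP (g p) b) :
    InP p (L' b) := by
  obtain ⟨ε, hε, hlt⟩ := hb
  refine transfer_inP H hE.unit hE.ex hε ?_
  rw [hE.ri]
  exact hlt

/-- The exact map preserves the norm on the open cone of chords. -/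
lemma Ex.norm_eq (H : SphereIso g h) (hE : Ex g p L L') {a : X} (ha : InP p a) :
    ‖L a‖ = ‖a‖ := by
  refine le_antisymm ?_ (norm_le_of_inP H hE.unit hE.ex ha)
  have hE' := hE.symm H
  have := norm_le_of_inP H.symm hE'.unit hE'.ex (hE.inP_image H ha)
  rwa [hE.li] at this

lemma Ex.norm_eq' (H : SphereIso g h) (hE : Ex g p L L') {b : Y} (hb : InP (g p) b) :
    ‖L' b‖ = ‖b‖ := by
  have h1 := hE.norm_eq H (hE.inP_of_image H hb)
  rw [hE.ri] at h1
  exact h1.symm

omit [FiniteDimensional ℝ X] [FiniteDimensional ℝ Y] [Nontrivial X] [Nontrivial Y] in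
lemma inP_of_close {q a : X} (h : ‖q - a‖ < 1) : InP q a := ⟨1, one_pos, by simpa using h⟩

omit [FiniteDimensional ℝ X] [FiniteDimensional ℝ Y] [Nontrivial X] [Nontrivial Y] in
lemma InP.eventually_nhds {q a : X} (h : InP q a) : ∀ᶠ b in 𝓝 a, InP q b := h.eventually

/-- Composition with the exact map keeps norming functionals. -/
lemma Ex.nrm_comp (H : SphereIso g h) (hE : Ex g p L L') {a : X} (ha : InP p a)
    {Ψ : StrongDual ℝ Y} (hΨ : Nrm Ψ (L a)) : Nrm (Ψ.comp L) a := by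
  refine nrm_of_local ?_ ?_
  · rw [ContinuousLinearMap.comp_apply, hΨ.2, hE.norm_eq H ha]
  · filter_upwards [ha.eventually] with b hb
    rw [ContinuousLinearMap.comp_apply, ← hE.norm_eq H hb]
    exact hΨ.le _

lemma Ex.nrm_comp' (H : SphereIso g h) (hE : Ex g p L L') {a : X} (ha : InP p a)
    {ψ : StrongDual ℝ X} (hψ : Nrm ψ a) : Nrm (ψ.comp L') (L a) := by
  have hE' := hE.symm H
  refine hE'.nrm_comp H.symm (hE.inP_image H ha) ?_
  rw [hE.li]
  exact hψ

/-- Unique norming functionals are carried over by the exact map. -/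
lemma Ex.dif_image (H : SphereIso g h) (hE : Ex g p L L') {a : X} (ha : InP p a)
    {φ : StrongDual ℝ X} (hd : Dif φ a) : Dif (φ.comp L') (L a) := by
  refine ⟨hE.nrm_comp' H ha hd.1, fun Ψ hΨ => ?_⟩
  have h1 := hd.2 _ (hE.nrm_comp H ha hΨ)
  ext y
  have e : Ψ y = (Ψ.comp L) (L' y) := by
    rw [ContinuousLinearMap.comp_apply, hE.ri]
  rw [e, h1]
  rfl

lemma Ex.dif_preimage (H : SphereIso g h) (hE : Ex g p L L') {a : X} (ha : InP p a)
    {φ : StrongDual ℝ X} (hd : Dif (φ.comp L') (L a)) : Dif φ a := by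
  refine ⟨?_, fun ψ hψ => ?_⟩
  · have := hE.nrm_comp H ha hd.1
    have e : ((φ.comp L').comp L) = φ := by
      ext x
      simp [hE.li]
    rwa [e] at this
  · have h1 := hd.2 _ (hE.nrm_comp' H ha hψ)
    ext x
    have e1 : ψ x = (ψ.comp L') (L x) := by
      rw [ContinuousLinearMap.comp_apply, hE.li]
    rw [e1, h1]
    simp [hE.li]

/-- The first order expansion at an exact point. -/
theorem Ex.expansion (H : SphereIso g h) (hE : Ex g p L L') :
    ∃ K : ℝ, 0 ≤ K ∧ ∀ᶠ y in 𝓝 p, ‖y‖ = 1 → ‖g y - g p - L (y - p)‖ ≤ K * ‖y - p‖ ^ 2 := by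
  classical
  obtain ⟨s, hsB, hs⟩ := exists_finset {Φ : StrongDual ℝ Y | ∃ u φ, IsChord g p u φ Φ} (by
    intro v hv
    exact span_Y H hE.unit fun u φ Φ hc => hv Φ ⟨u, φ, hc⟩)
  obtain ⟨C, hC, hCb⟩ := finset_const s hs
  have hpart : ∀ Φ ∈ s, ∃ K : ℝ, ∀ᶠ y in 𝓝 p, ‖y‖ = 1 →
      |Φ (g y - g p - L (y - p))| ≤ K * ‖y - p‖ ^ 2 := by
    intro Φ hΦ
    obtain ⟨u, φ, hc⟩ := hsB Φ hΦ
    obtain ⟨K, hK⟩ := chord_est H hE.unit hc
    refine ⟨K, ?_⟩
    filter_upwards [hK] with y hy hy1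
    have h1 := hy hy1
    have e : Φ (g y - g p - L (y - p)) = - (φ (y - p) - Φ (g y - g p)) := by
      rw [map_sub, hE.ex u φ Φ hc]
      ring
    rw [e, abs_neg]
    exact h1
  choose! K hK using hpart
  refine ⟨C * ∑ Φ ∈ s, |K Φ|, by positivity, ?_⟩
  have hall : ∀ᶠ y in 𝓝 p, ∀ Φ ∈ s, ‖y‖ = 1 →
      |Φ (g y - g p - L (y - p))| ≤ K Φ * ‖y - p‖ ^ 2 :=
    (Finset.eventually_all s).2 hK
  filter_upwards [hall] with y hy hy1
  rw [mul_assoc]
  refine hCb _ _ (by positivity) fun Φ hΦ => ?_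
  refine (hy Φ hΦ hy1).trans (mul_le_mul_of_nonneg_right ?_ (by positivity))
  refine (le_abs_self _).trans ?_
  exact Finset.single_le_sum (f := fun Φ => |K Φ|) (fun _ _ => abs_nonneg _) hΦ

/-- Norming functionals at the image point are first order nonpositive along the sphere. -/
lemma Ex.subAt_of_nrm (H : SphereIso g h) (hE : Ex g p L L') {Ψ : StrongDual ℝ Y}
    (hΨ : Nrm Ψ (g p)) : SubAt (Ψ.comp L) p := by
  obtain ⟨K, hK0, hK⟩ := hE.expansion H
  intro ε hε
  obtain ⟨δ₀, hδ₀, hb⟩ := Metric.eventually_nhds_iff.1 hK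
  obtain ⟨δ, hδ⟩ : ∃ δ, δ = min (δ₀ / 2) (ε / (K + 1)) := ⟨_, rfl⟩
  have h1 : δ ≤ δ₀ / 2 := hδ ▸ min_le_left _ _
  have h2 : δ ≤ ε / (K + 1) := hδ ▸ min_le_right _ _
  have h0 : 0 < δ := by
    rw [hδ]
    exact lt_min (by positivity) (by positivity)
  refine ⟨δ, h0, fun y hy1 hyδ => ?_⟩
  have hd : dist y p < δ₀ := by
    rw [dist_eq_norm]
    linarith
  have h3 := hb hd hy1
  rw [ContinuousLinearMap.comp_apply]
  have h4 : Ψ (g y) ≤ 1 := by
    have := hΨ.le (g y)
    rwa [H.map_g y hy1] at this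
  have h5 : Ψ (g p) = 1 := by
    rw [hΨ.2, H.map_g p hE.unit]
  have h6 : Ψ (g y - g p - L (y - p)) ≥ -(K * ‖y - p‖ ^ 2) := by
    have := (abs_le.1 ((hΨ.abs_le _).trans h3)).1
    linarith
  rw [map_sub, map_sub] at h6
  have h7 : K * ‖y - p‖ ^ 2 ≤ ε * ‖y - p‖ := by
    have h8 : (K + 1) * ‖y - p‖ ≤ ε := by
      have := hyδ.trans h2
      rwa [le_div_iff₀ (by positivity), mul_comm] at this
    have hn := norm_nonneg (y - p)
    nlinarith
  linarith

/-- Norming functionals at the image are norming at the source. -/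
lemma Ex.value_one (H : SphereIso g h) (hE : Ex g p L L') {Ψ : StrongDual ℝ Y}
    (hΨ : Nrm Ψ (g p)) : Ψ (L p) = 1 := by
  have hp := hE.unit
  have hy₀ : ‖g p‖ = 1 := H.map_g p hp
  have hsub := hE.subAt_of_nrm H hΨ
  have hpP : InP p p := inP_self
  have hx₁ : InP p (L' (g p)) := hE.inP_of_image H inP_self
  have hx₁n : ‖L' (g p)‖ = 1 := by
    rw [hE.norm_eq' H inP_self, hy₀]
  have hN : Nrm (Ψ.comp L) (L' (g p)) := by
    refine hE.nrm_comp H hx₁ ?_
    rw [hE.ri]
    exact hΨ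
  have hval : Ψ (L (L' (g p))) = 1 := by
    rw [hE.ri, hΨ.2, hy₀]
  have hle : Ψ (L p) ≤ 1 := by
    have := hN.le p
    rwa [hp, ContinuousLinearMap.comp_apply] at this
  obtain ⟨ε, hε, hlt⟩ := hE.inP_image H hpP
  have hpos : 0 < Ψ (L p) := by
    have h1 := hΨ.le (g p - ε • L p)
    rw [map_sub, map_smul, smul_eq_mul, hΨ.2, hy₀] at h1
    have h3 : 0 < ε * Ψ (L p) := by linarith
    exact (pos_iff_pos_of_mul_pos h3).1 hε
  refine le_antisymm hle ?_
  refine le_of_forall_pos_le_add fun η hη => ?_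
  obtain ⟨δ, hδ, -, hb⟩ := subAt_core hp hsub (L' (g p)) hη one_pos
  rw [ContinuousLinearMap.comp_apply, ContinuousLinearMap.comp_apply, hval] at hb
  have h1 : ‖p + δ • L' (g p)‖ - 1 ≤ δ := by
    have := norm_add_le p (δ • L' (g p))
    rw [hp, norm_smul, hx₁n, Real.norm_of_nonneg hδ.le, mul_one] at this
    linarith
  have h2 : (‖p + δ • L' (g p)‖ - 1) * Ψ (L p) ≤ δ * Ψ (L p) :=
    mul_le_mul_of_nonneg_right h1 hpos.le
  have h3 : δ * 1 ≤ δ * (Ψ (L p) + η) := by nlinarith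
  have := le_of_mul_le_mul_left h3 hδ
  linarith

/-- Norming functionals at `p` take the value one at the preimage of the image. -/
lemma Ex.value_one' (H : SphereIso g h) (hE : Ex g p L L') {ψ : StrongDual ℝ X}
    (hψ : Nrm ψ p) : ψ (L' (g p)) = 1 := by
  have hE' := hE.symm H
  refine hE'.value_one H.symm ?_
  rw [H.left p hE.unit]
  exact hψ

/-- Along a segment in the sphere starting at `p` the map is given by the exact map. -/
theorem Ex.star_affine (H : SphereIso g h) (hE : Ex g p L L') {z : X} (hz : ‖z‖ = 1)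
    (hpz : ‖p + z‖ = 2) : g z = g p + L (z - p) := by
  have hp := hE.unit
  obtain ⟨K, hK0, hK⟩ := hE.expansion H
  obtain ⟨δ₀, hδ₀, hb⟩ := Metric.eventually_nhds_iff.1 hK
  obtain ⟨φ, hφ, hφp, hφz⟩ := exists_functional_add hp hz hpz
  have hA : ∀ s : ℝ, 0 < s → s ≤ 1 → s * ‖z - p‖ < δ₀ →
      ‖g z - g p - L (z - p)‖ ≤ s * (K * ‖z - p‖ ^ 2) := by
    intro s hs hs1 hsδ
    have hys : ‖(1 - s) • p + s • z‖ = 1 := by
      refine le_antisymm ?_ ?_
      · refine (norm_add_le _ _).trans ?_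
        rw [norm_smul, norm_smul, hp, hz, Real.norm_of_nonneg hs.le,
          Real.norm_of_nonneg (by linarith)]
        linarith
      · have h1 := fle φ hφ ((1 - s) • p + s • z)
        rw [map_add, map_smul, map_smul, hφp, hφz, smul_eq_mul, smul_eq_mul] at h1
        linarith
    have e : (1 - s) • p + s • z - p = s • (z - p) := by module
    have h2 := sphere_affine H hp hz hpz hs.le hs1
    have h3 := @hb ((1 - s) • p + s • z) (by
      rw [dist_eq_norm, e, norm_smul, Real.norm_of_nonneg hs.le]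
      exact hsδ) hys
    rw [h2, e, norm_smul, Real.norm_of_nonneg hs.le] at h3
    have e2 : (1 - s) • g p + s • g z - g p - L (s • (z - p)) =
        s • (g z - g p - L (z - p)) := by
      rw [map_smul]
      module
    rw [e2, norm_smul, Real.norm_of_nonneg hs.le] at h3
    have h4 : s * ‖g z - g p - L (z - p)‖ ≤ s * (K * (s * ‖z - p‖ ^ 2)) := by
      calc _ ≤ K * (s * ‖z - p‖) ^ 2 := h3
        _ = _ := by ring
    have h5 := le_of_mul_le_mul_left h4 hs
    calc _ ≤ K * (s * ‖z - p‖ ^ 2) := h5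
      _ = _ := by ring
  have hzero : ‖g z - g p - L (z - p)‖ ≤ 0 := by
    refine le_of_forall_pos_le_add fun η hη => ?_
    obtain ⟨s, hs⟩ : ∃ s, s = min 1 (min (δ₀ / (2 * (‖z - p‖ + 1))) (η / (K * ‖z - p‖ ^ 2 + 1))) :=
      ⟨_, rfl⟩
    have hd1 : 0 < ‖z - p‖ + 1 := by positivity
    have hd2 : 0 < K * ‖z - p‖ ^ 2 + 1 := by positivity
    have hs0 : 0 < s := by
      rw [hs]
      exact lt_min one_pos (lt_min (by positivity) (by positivity))
    have hs1 : s ≤ 1 := hs ▸ min_le_left _ _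
    have hs2 : s ≤ δ₀ / (2 * (‖z - p‖ + 1)) := by
      rw [hs]
      exact (min_le_right _ _).trans (min_le_left _ _)
    have hs3 : s ≤ η / (K * ‖z - p‖ ^ 2 + 1) := by
      rw [hs]
      exact (min_le_right _ _).trans (min_le_right _ _)
    rw [le_div_iff₀ (by positivity)] at hs2 hs3
    have h1 := hA s hs0 hs1 (by nlinarith [norm_nonneg (z - p)])
    have hq : 0 ≤ K * ‖z - p‖ ^ 2 := by positivity
    nlinarith
  have := norm_le_zero_iff.1 hzero
  have e : g z = g z - g p - L (z - p) + (g p + L (z - p)) := by abel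
  rw [e, this, zero_add]

/-- **At an exact point the map is exact at the point itself.** -/
theorem Ex.map_self (H : SphereIso g h) (hE : Ex g p L L') : L p = g p := by
  have hp := hE.unit
  obtain ⟨t, ht⟩ : ∃ t, t = L' (g p) - p := ⟨_, rfl⟩
  have hψt : ∀ ψ : StrongDual ℝ X, Nrm ψ p → ψ t = 0 := by
    intro ψ hψ
    rw [ht, map_sub, hE.value_one' H hψ, hψ.2, hp, sub_self]
  let F : Set X := {z | ‖z‖ = 1 ∧ ∀ ψ : StrongDual ℝ X, Nrm ψ p → ψ z = 1}
  have hpF : p ∈ F := ⟨hp, fun ψ hψ => by rw [hψ.2, hp]⟩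
  have hstep : ∀ z ∈ F, z + t ∈ F := by
    rintro z ⟨hz1, hz2⟩
    obtain ⟨N, hN⟩ := exists_nrm p
    have hpz : ‖p + z‖ = 2 := by
      refine le_antisymm ?_ ?_
      · refine (norm_add_le _ _).trans ?_
        rw [hp, hz1]
        norm_num
      · have := hN.le (p + z)
        rw [map_add, hN.2, hp, hz2 N hN] at this
        linarith
    have hg := hE.star_affine H hz1 hpz
    have hLw : L (z + t) = g z := by
      rw [hg, ht, map_add, map_sub, map_sub, hE.ri]
      abel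
    have hval : ∀ ψ : StrongDual ℝ X, Nrm ψ p → ψ (z + t) = 1 := by
      intro ψ hψ
      rw [map_add, hz2 ψ hψ, hψt ψ hψ, add_zero]
    have hP : InP p (z + t) := inP_of_pos hp fun ψ hψ => by
      rw [hval ψ hψ]
      exact one_pos
    refine ⟨?_, hval⟩
    rw [← hE.norm_eq H hP, hLw, H.map_g z hz1]
  have hall : ∀ n : ℕ, p + (n : ℝ) • t ∈ F := by
    intro n
    induction n with
    | zero => simpa using hpF
    | succ n ih =>
      have := hstep _ ih
      have e : p + (n : ℝ) • t + t = p + ((n + 1 : ℕ) : ℝ) • t := by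
        push_cast
        rw [add_smul, one_smul]
        abel
      rwa [e] at this
  have ht0 : t = 0 := by
    by_contra hne
    have hpos : 0 < ‖t‖ := norm_pos_iff.2 hne
    obtain ⟨n, hn⟩ := exists_nat_gt (2 / ‖t‖)
    have h1 : ‖(n : ℝ) • t‖ ≤ 2 := by
      have e : (n : ℝ) • t = (p + (n : ℝ) • t) - p := by abel
      rw [e]
      refine (norm_sub_le _ _).trans ?_
      rw [(hall n).1, hp]
      norm_num
    rw [norm_smul, Real.norm_natCast] at h1
    rw [div_lt_iff₀ hpos] at hn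
    linarith
  have h2 : L' (g p) = p := by
    rw [ht] at ht0
    exact sub_eq_zero.1 ht0
  have := hE.ri (g p)
  rw [h2] at this
  exact this

/-- On the faces through an exact point the map is the exact map. -/
theorem Ex.on_star (H : SphereIso g h) (hE : Ex g p L L') {z : X} (hz : ‖z‖ = 1)
    (hpz : ‖p + z‖ = 2) : g z = L z := by
  rw [hE.star_affine H hz hpz, map_sub, hE.map_self H]
  abel

/-- Two linear maps agreeing at `p` and to second order along the sphere at `p` coincide. -/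
theorem eq_of_second_order {E F : Type*} [NormedAddCommGroup E] [NormedSpace ℝ E]
    [NormedAddCommGroup F] [NormedSpace ℝ F] [Nontrivial E] {q : E} (hq : ‖q‖ = 1) {T : E →L[ℝ] F}
    (hT : T q = 0) {K : ℝ} (hK : ∀ᶠ y in 𝓝 q, ‖y‖ = 1 → ‖T (y - q)‖ ≤ K * ‖y - q‖ ^ 2) :
    T = 0 := by
  ext a
  obtain ⟨δ₀, hδ₀, hb⟩ := Metric.eventually_nhds_iff.1 hK
  have key : ∀ Ψ : StrongDual ℝ F, ‖Ψ‖ ≤ 1 → SubAt (Ψ.comp T) q := by
    intro Ψ hΨ ε hε
    obtain ⟨δ, hδ⟩ : ∃ δ, δ = min (δ₀ / 2) (ε / (|K| + 1)) := ⟨_, rfl⟩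
    have h1 : δ ≤ δ₀ / 2 := hδ ▸ min_le_left _ _
    have h2 : δ ≤ ε / (|K| + 1) := hδ ▸ min_le_right _ _
    have h0 : 0 < δ := by
      rw [hδ]
      exact lt_min (by positivity) (by positivity)
    refine ⟨δ, h0, fun y hy1 hyδ => ?_⟩
    have hd : dist y q < δ₀ := by
      rw [dist_eq_norm]
      linarith
    have h3 := hb hd hy1
    rw [ContinuousLinearMap.comp_apply]
    have h4 := fle Ψ hΨ (T (y - q))
    have h5 : K * ‖y - q‖ ^ 2 ≤ |K| * ‖y - q‖ ^ 2 :=
      mul_le_mul_of_nonneg_right (le_abs_self _) (by positivity)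
    have h8 : (|K| + 1) * ‖y - q‖ ≤ ε := by
      have := hyδ.trans h2
      rwa [le_div_iff₀ (by positivity), mul_comm] at this
    have hn := norm_nonneg (y - q)
    nlinarith [abs_nonneg K]
  have hz : ∀ Ψ : StrongDual ℝ F, ‖Ψ‖ ≤ 1 → Ψ.comp T = 0 := by
    intro Ψ hΨ
    obtain h1 | h1 | h1 := subAt_tri hq (key Ψ hΨ)
    · exact h1
    · have := h1 q inP_self
      rw [ContinuousLinearMap.comp_apply, hT, map_zero] at this
      exact absurd this (lt_irrefl _)
    · have := h1 q inP_self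
      rw [ContinuousLinearMap.comp_apply, hT, map_zero] at this
      exact absurd this (lt_irrefl _)
  by_contra hne
  have hne' : T a ≠ 0 := by simpa using hne
  obtain ⟨Ψ, hΨ, hv⟩ := exists_dual_vector'' ℝ (T a)
  have h1 := congrArg (fun D : StrongDual ℝ E => D a) (hz Ψ hΨ)
  simp only [ContinuousLinearMap.comp_apply, _root_.zero_apply] at h1
  rw [h1] at hv
  have : ‖T a‖ = 0 := by
    simpa using hv.symm
  exact hne' (norm_eq_zero.1 this)

end Exact

end Vale.Agent.Lib.P084.Cartan
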