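import Mathlib
import Vale.Agent.Lib.P084.Cartan.Exact

/-! The map is linear near an exact point which is a limit of extreme points. -/

namespace Vale.Agent.Lib.P084.Cartan

open Set Metric Filter Topology
open Vale.Agent.Lib.P084 Vale.Agent.Lib.P084.Far

section Local

variable {X Y : Type*} [NormedAddCommGroup X] [NormedSpace ℝ X]
  [NormedAddCommGroup Y] [NormedSpace ℝ Y] {g : X → Y} {h : Y → X}
  [FiniteDimensional ℝ X] [FiniteDimensional ℝ Y] [Nontrivial X] [Nontrivial Y]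
  {p : X} {L : X →L[ℝ] Y} {L' : Y →L[ℝ] X}

omit [FiniteDimensional ℝ X] [FiniteDimensional ℝ Y] [Nontrivial X] [Nontrivial Y] in
lemma inP_of_half {q a : X} (hle : ‖q + a‖ < 2) : InP q (q - a) := by
  refine ⟨1 / 2, by norm_num, ?_⟩
  have e : q - (1 / 2 : ℝ) • (q - a) = (1 / 2 : ℝ) • (q + a) := by module
  rw [e, norm_smul]
  norm_num
  linarith

omit [FiniteDimensional ℝ X] [FiniteDimensional ℝ Y] [Nontrivial X] [Nontrivial Y] in
lemma inP_of_half' {q a : X} (hle : ‖q - a‖ < 2) : InP q (q + a) := by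
  have := inP_of_half (q := q) (a := -a) (by rwa [← sub_eq_add_neg])
  rwa [sub_neg_eq_add] at this

omit [FiniteDimensional ℝ Y] [Nontrivial X] [Nontrivial Y] in
lemma norm_add_le_two {a b : X} (ha : ‖a‖ = 1) (hb : ‖b‖ = 1) : ‖a + b‖ ≤ 2 := by
  refine (norm_add_le _ _).trans ?_
  rw [ha, hb]
  norm_num

lemma Ex.preimage_self (H : SphereIso g h) (hE : Ex g p L L') : L' (g p) = p := by
  rw [← hE.map_self H, hE.li]

/-- The distance to `p` is preserved. -/
lemma Ex.dist_image (H : SphereIso g h) (hE : Ex g p L L') {y : X} (hy : ‖y‖ = 1) :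
    ‖L' (g y) - p‖ = ‖y - p‖ := by
  have hp := hE.unit
  by_cases h2 : ‖p + y‖ = 2
  · rw [hE.on_star H hy h2, hE.li]
  · have hlt : ‖p + y‖ < 2 := lt_of_le_of_ne (norm_add_le_two hp hy) h2
    have hP : InP (g p) (g p - g y) := by
      refine inP_of_half ?_
      rwa [norm_add_image H hp hy]
    have h3 := hE.norm_eq' H hP
    rw [map_sub, hE.preimage_self H, H.iso p y hp hy, norm_sub_rev p (L' (g y)),
      norm_sub_rev p y] at h3
    exact h3

lemma Ex.norm_sub (H : SphereIso g h) (hE : Ex g p L L') {y : X} (hy : ‖y‖ = 1) :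
    ‖L (y - p)‖ = ‖y - p‖ := by
  have hp := hE.unit
  by_cases h2 : ‖p + y‖ = 2
  · rw [map_sub, ← hE.on_star H hy h2, hE.map_self H]
    exact H.iso y p hy hp
  · have hlt : ‖p + y‖ < 2 := lt_of_le_of_ne (norm_add_le_two hp hy) h2
    have h3 := hE.norm_eq H (inP_of_half hlt)
    rw [← norm_neg (L (y - p)), ← map_neg, neg_sub, h3, norm_sub_rev]

omit [FiniteDimensional ℝ X] [FiniteDimensional ℝ Y] [Nontrivial X] [Nontrivial Y] in
lemma In.inP {y : X} (hy : In p (1 / 2) y) : InP p y :=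
  inP_of_close (by
    rw [norm_sub_rev]
    have := hy.2
    linarith)

/-- Forward transport of unique norming functionals. -/
theorem Ex.dif_forward (H : SphereIso g h) (hE : Ex g p L L') {φ : StrongDual ℝ X} {w : X}
    (hw : In p (1 / 2) w) (hd : Dif φ (p + w)) : Dif φ (p + L' (g w)) := by
  have hp := hE.unit
  have hy₀ : ‖g p‖ = 1 := H.map_g p hp
  have hpw : ‖p - w‖ ≤ 1 / 2 := by
    rw [norm_sub_rev]
    exact hw.2
  have hP₁ : InP p (p + w) := inP_of_half' (by linarith)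
  have hP₂ : InP (g p) (g p + g w) := by
    refine inP_of_half' ?_
    rw [H.iso p w hp hw.1]
    linarith
  have hb : p + L' (g w) = L' (g p + g w) := by
    rw [map_add, hE.preimage_self H]
  have hP₃ : InP p (p + L' (g w)) := by
    rw [hb]
    exact hE.inP_of_image H hP₂
  have hnb : ‖p + L' (g w)‖ = ‖g p + g w‖ := by
    rw [hb, hE.norm_eq' H hP₂]
  have hnadd : ‖g p + g w‖ = ‖p + w‖ := norm_add_image H hp hw.1
  have key : ∀ Ψ : StrongDual ℝ Y, Nrm Ψ (g p + g w) → Ψ.comp L = φ := by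
    intro Ψ hΨ
    have hsub : SubAt (Ψ.comp L - φ) p := by
      intro ε hε
      obtain ⟨K, hK0, hK⟩ := hE.expansion H
      obtain ⟨δ₀, hδ₀, hb₀⟩ := Metric.eventually_nhds_iff.1 hK
      obtain ⟨δ₂, hδ₂, hb₂⟩ := hd.first_order (ε := ε / 2) (by positivity)
      obtain ⟨δ, hδ⟩ : ∃ δ, δ = min (δ₀ / 2) (min δ₂ (ε / (2 * (K + 1)))) := ⟨_, rfl⟩
      have h1 : δ ≤ δ₀ / 2 := hδ ▸ min_le_left _ _
      have h2 : δ ≤ δ₂ := by
        rw [hδ]
        exact (min_le_right _ _).trans (min_le_left _ _)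
      have h3 : δ ≤ ε / (2 * (K + 1)) := by
        rw [hδ]
        exact (min_le_right _ _).trans (min_le_right _ _)
      have h0 : 0 < δ := by
        rw [hδ]
        exact lt_min (by positivity) (lt_min hδ₂ (by positivity))
      refine ⟨δ, h0, fun y hy1 hyδ => ?_⟩
      have hdist : dist y p < δ₀ := by
        rw [dist_eq_norm]
        linarith
      have hA := hb₀ hdist hy1
      have hB := hb₂ (y - p) (hyδ.trans h2)
      have e1 : p + w + (y - p) = y + w := by abel
      rw [e1] at hB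
      have h4 : ‖y + w‖ = ‖g y + g w‖ := (norm_add_image H hy1 hw.1).symm
      have h5 := hΨ.le (g y + g w)
      have e2 : Ψ (g y + g w) = Ψ (g p + g w) + Ψ (L (y - p)) + Ψ (g y - g p - L (y - p)) := by
        simp only [map_add, map_sub]
        ring
      rw [e2, hΨ.2, hnadd, ← h4] at h5
      have h6 := (abs_le.1 ((hΨ.abs_le (g y - g p - L (y - p))).trans hA)).1
      simp only [_root_.sub_apply, ContinuousLinearMap.comp_apply]
      have h7 : K * ‖y - p‖ ^ 2 ≤ (ε / 2) * ‖y - p‖ := by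
        have h8 : (2 * (K + 1)) * ‖y - p‖ ≤ ε := by
          have := hyδ.trans h3
          rwa [le_div_iff₀ (by positivity), mul_comm] at this
        have hn := norm_nonneg (y - p)
        nlinarith
      linarith
    have hna : (Ψ.comp L - φ) (p + w) ≤ 0 := by
      simp only [_root_.sub_apply, ContinuousLinearMap.comp_apply]
      rw [hd.1.2]
      have := hΨ.le (L (p + w))
      rw [hE.norm_eq H hP₁] at this
      linarith
    have hnb' : 0 ≤ (Ψ.comp L - φ) (p + L' (g w)) := by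
      simp only [_root_.sub_apply, ContinuousLinearMap.comp_apply]
      rw [hb, hE.ri, hΨ.2, ← hb, ← hnb]
      have := hd.1.le (p + L' (g w))
      linarith
    exact sub_eq_zero.1 (subAt_zero hp hsub hP₁ hP₃ hna hnb')
  obtain ⟨Ψ₀, hΨ₀⟩ := exists_nrm (g p + g w)
  have hφ := key Ψ₀ hΨ₀
  refine ⟨⟨hd.1.1, ?_⟩, fun ψ hψ => ?_⟩
  · rw [← hφ, ContinuousLinearMap.comp_apply, hb, hE.ri, hΨ₀.2, hE.norm_eq' H hP₂]
  · have h1 : Nrm (ψ.comp L') (L (p + L' (g w))) := hE.nrm_comp' H hP₃ hψ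
    have e : L (p + L' (g w)) = g p + g w := by
      rw [hb, hE.ri]
    rw [e] at h1
    have h2 := key _ h1
    ext x
    have h3 := congrArg (fun D : StrongDual ℝ X => D x) h2
    simp only [ContinuousLinearMap.comp_apply, hE.li] at h3
    exact h3

/-- Backward transport of unique norming functionals. -/
theorem Ex.dif_backward (H : SphereIso g h) (hE : Ex g p L L') {φ : StrongDual ℝ X} {w : X}
    (hw : In p (1 / 2) w) (hd : Dif φ (p + w)) : Dif φ (p + h (L w)) := by
  have hp := hE.unit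
  have hE' := hE.symm H
  have hpw : ‖p - w‖ ≤ 1 / 2 := by
    rw [norm_sub_rev]
    exact hw.2
  have hP₁ : InP p (p + w) := inP_of_half' (by linarith)
  have hLw : ‖L w‖ = 1 := by
    rw [hE.norm_eq H hw.inP, hw.1]
  have hdL : ‖L w - g p‖ = ‖w - p‖ := by
    rw [← hE.map_self H, ← map_sub]
    exact hE.norm_sub H hw.1
  have hIn : In (g p) (1 / 2) (L w) := ⟨hLw, by
    rw [hdL]
    exact hw.2⟩
  have h1 := hE.dif_image H hP₁ hd
  have e1 : L (p + w) = g p + L w := by
    rw [map_add, hE.map_self H]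
  rw [e1] at h1
  have h2 := hE'.dif_forward H.symm hIn h1
  have hτ : ‖h (L w) - p‖ = ‖w - p‖ := by
    have h3 := H.iso_h (L w) (g p) hLw (H.map_g p hp)
    rw [H.left p hp] at h3
    rw [h3, hdL]
  have hP₂ : InP p (p + h (L w)) := by
    refine inP_of_half' ?_
    rw [norm_sub_rev, hτ]
    have := hw.2
    linarith
  have e2 : g p + L (h (L w)) = L (p + h (L w)) := by
    rw [map_add, hE.map_self H]
  rw [e2] at h2
  exact hE.dif_preimage H hP₂ h2

/-- The maps of a neighbourhood of `p` built from the exact map. -/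
theorem Ex.gam (H : SphereIso g h) (hE : Ex g p L L') :
    Gam p (1 / 2) (fun y => L' (g y)) (fun y => h (L y)) := by
  have hp := hE.unit
  have hLunit : ∀ y, In p (1 / 2) y → ‖L y‖ = 1 := by
    intro y hy
    rw [hE.norm_eq H hy.inP, hy.1]
  refine ⟨?_, ?_, ?_, ?_, ?_, ?_, ?_, ?_, ?_, ?_⟩
  · intro y hy
    have hP : InP (g p) (g y) := inP_of_close (by
      rw [H.iso p y hp hy.1, norm_sub_rev]
      have := hy.2
      linarith)
    show ‖L' (g y)‖ = 1
    rw [hE.norm_eq' H hP, H.map_g y hy.1]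
  · intro y hy
    exact H.map_h _ (hLunit y hy)
  · intro y hy
    exact hE.dist_image H hy.1
  · intro y hy
    show ‖h (L y) - p‖ = _
    have h3 := H.iso_h (L y) (g p) (hLunit y hy) (H.map_g p hp)
    rw [H.left p hp] at h3
    rw [h3, ← hE.map_self H, ← map_sub]
    exact hE.norm_sub H hy.1
  · intro y hy
    show h (L (L' (g y))) = y
    rw [hE.ri, H.left y hy.1]
  · intro y hy
    show L' (g (h (L y))) = y
    rw [H.right _ (hLunit y hy), hE.li]
  · exact hE.preimage_self H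
  · intro y w hy hw
    show ‖L' (g y) + L' (g w)‖ = _
    have hP : InP (g p) (g y + g w) := by
      refine ⟨1 / 2, by norm_num, ?_⟩
      have e : g p - (1 / 2 : ℝ) • (g y + g w) =
          (1 / 2 : ℝ) • (g p - g y) + (1 / 2 : ℝ) • (g p - g w) := by module
      rw [e]
      refine (norm_add_le _ _).trans_lt ?_
      rw [norm_smul, norm_smul, H.iso p y hp hy.1, H.iso p w hp hw.1, norm_sub_rev p y,
        norm_sub_rev p w]
      have h1 := hy.2
      have h2 := hw.2
      norm_num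
      linarith
    rw [← map_add, hE.norm_eq' H hP]
    exact norm_add_image H hy.1 hw.1
  · intro φ w hw hd
    exact hE.dif_forward H hw hd
  · intro φ w hw hd
    exact hE.dif_backward H hw hd

/-- The norm is locally constant along a common kernel vector of the functionals near `p`. -/
lemma Ex.mono_of_kernel (H : SphereIso g h) (hE : Ex g p L L') {v : X}
    (hv : ∀ φ : StrongDual ℝ X, (∃ w, In p (1 / 2) w ∧ Dif φ (p + w)) → φ v = 0)
    {z₁ : X} (hz₁ : ‖z₁ - (p + p)‖ < 1 / 16) (t : ℝ) : ‖z₁‖ ≤ ‖z₁ + t • v‖ := by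
  have hp := hE.unit
  refine le_of_forall_pos_le_add fun η hη => ?_
  have hlt : ‖p - (1 / 2 : ℝ) • z₁‖ < 1 := by
    have e : p - (1 / 2 : ℝ) • z₁ = (-(1 / 2 : ℝ)) • (z₁ - (p + p)) := by module
    rw [e, norm_smul]
    norm_num
    linarith
  obtain ⟨s, hs, hs1, hs2⟩ := exit_of_mem hp (by norm_num) hlt
  obtain ⟨ζ, hζ⟩ : ∃ ζ, ζ = z₁ - (p + p) := ⟨_, rfl⟩
  rw [← hζ] at hz₁
  have hs0 : 0 < s := by linarith
  have e1 : (2 * s - 1) • p = -(p - s • z₁) - s • ζ := by
    rw [hζ]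
    module
  have hsub : 2 * s - 1 ≤ 1 + s * ‖ζ‖ := by
    have h1 : ‖(2 * s - 1) • p‖ = 2 * s - 1 := by
      rw [norm_smul, hp, mul_one, Real.norm_of_nonneg (by linarith)]
    have h2 : ‖-(p - s • z₁) - s • ζ‖ ≤ 1 + s * ‖ζ‖ := by
      refine (norm_sub_le _ _).trans ?_
      rw [norm_neg, hs1, norm_smul, Real.norm_of_nonneg hs0.le]
    rw [← e1, h1] at h2
    exact h2
  have hlow : 1 ≤ 2 * s - 1 + s * ‖ζ‖ := by
    have e2 : p - s • z₁ = -((2 * s - 1) • p) - s • ζ := by
      rw [e1]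
      abel
    have h2 : ‖p - s • z₁‖ ≤ (2 * s - 1) + s * ‖ζ‖ := by
      rw [e2]
      refine (norm_sub_le _ _).trans ?_
      rw [norm_neg, norm_smul, norm_smul, hp, mul_one, Real.norm_of_nonneg (by linarith),
        Real.norm_of_nonneg hs0.le]
    rw [hs1] at h2
    exact h2
  have hζ0 := norm_nonneg ζ
  have hs2' : s ≤ 2 := by nlinarith
  have hs3 : s * ‖ζ‖ ≤ 1 / 8 := by nlinarith
  have hs4 : |1 - s| ≤ 1 / 16 := by
    rw [abs_le]
    constructor <;> linarith
  have hu₁ : ‖p - s • z₁ + p‖ ≤ 1 / 4 := by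
    have e3 : p - s • z₁ + p = (2 * (1 - s)) • p - s • ζ := by
      rw [hζ]
      module
    rw [e3]
    refine (norm_sub_le _ _).trans ?_
    rw [norm_smul, norm_smul, hp, mul_one, Real.norm_of_nonneg hs0.le, Real.norm_eq_abs, abs_mul]
    norm_num
    linarith
  obtain ⟨ε', hε'⟩ : ∃ ε', ε' = min (1 / 8 : ℝ) (η / 4) := ⟨_, rfl⟩
  have hε'0 : 0 < ε' := by
    rw [hε']
    exact lt_min (by norm_num) (by positivity)
  have hε'1 : ε' ≤ 1 / 8 := hε' ▸ min_le_left _ _
  have hε'2 : ε' ≤ η / 4 := hε' ▸ min_le_right _ _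
  obtain ⟨u, φ, Φ, hc, hu⟩ := exists_chord H hp hs1 hs2 hε'0
  have hIn : In p (1 / 2) (-u) := by
    refine ⟨by rw [norm_neg]; exact hc.unit, ?_⟩
    have e4 : -u - p = -((u - (p - s • z₁)) + (p - s • z₁ + p)) := by abel
    rw [e4, norm_neg]
    refine (norm_add_le _ _).trans ?_
    linarith
  have hN : Nrm φ (p - u) := ⟨hc.φle, hc.φval⟩
  have hD : Dif φ (p - u) := dif_of_reg hc.regX hN
  have hφv : φ v = 0 := hv φ ⟨-u, hIn, by rwa [← sub_eq_add_neg]⟩
  obtain ⟨z, hz⟩ : ∃ z, z = s⁻¹ • (p - u) := ⟨_, rfl⟩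
  have hφz : φ z = ‖z‖ := by
    rw [hz, map_smul, hN.2, smul_eq_mul, norm_smul, norm_inv, Real.norm_of_nonneg hs0.le]
  have hzz : ‖z - z₁‖ ≤ η / 2 := by
    have e5 : z - z₁ = s⁻¹ • ((p - s • z₁) - u) := by
      rw [hz, smul_sub, smul_sub, smul_sub, smul_smul, inv_mul_cancel₀ hs0.ne', one_smul]
      abel
    rw [e5, norm_smul, norm_inv, Real.norm_of_nonneg hs0.le, norm_sub_rev]
    have hi : s⁻¹ ≤ 2 := by
      rw [inv_le_comm₀ hs0 (by norm_num)]
      linarith
    have h5 : s⁻¹ * ‖u - (p - s • z₁)‖ ≤ 2 * ε' :=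
      mul_le_mul hi hu.le (norm_nonneg _) (by norm_num)
    linarith
  have h6 : ‖z‖ ≤ ‖z + t • v‖ := by
    have := fle φ hc.φle (z + t • v)
    rw [map_add, map_smul, hφv, smul_zero, add_zero, hφz] at this
    exact this
  have h7 : ‖z₁‖ ≤ ‖z‖ + ‖z - z₁‖ := by
    have := norm_sub_norm_le z₁ z
    rw [norm_sub_rev z₁ z] at this
    linarith
  have h8 : ‖z + t • v‖ ≤ ‖z₁ + t • v‖ + ‖z - z₁‖ := by
    have e6 : z + t • v = (z₁ + t • v) + (z - z₁) := by abel
    rw [e6]
    exact norm_add_le _ _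
  linarith

/-- Functionals near a limit of extreme points separate points. -/
theorem Ex.sep (H : SphereIso g h) (hE : Ex g p L L')
    (hext : ∀ ρ : ℝ, 0 < ρ → ∃ y ∈ (closedBall (0 : X) 1).extremePoints ℝ, ‖y - p‖ < ρ) {v : X}
    (hv : ∀ φ : StrongDual ℝ X, (∃ w, In p (1 / 2) w ∧ Dif φ (p + w)) → φ v = 0) : v = 0 := by
  by_contra hne
  have hv0 : 0 < ‖v‖ := norm_pos_iff.2 hne
  obtain ⟨y, hy, hyp⟩ := hext (1 / 64) (by norm_num)
  have hy1 : ‖y‖ = 1 := norm_of_extreme' hy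
  obtain ⟨t, ht⟩ : ∃ t, t = 1 / (64 * ‖v‖) := ⟨_, rfl⟩
  have ht0 : 0 < t := by
    rw [ht]
    positivity
  have htv : t * ‖v‖ = 1 / 64 := by
    rw [ht]
    field_simp
  have hmono := fun z₁ hz₁ t => hE.mono_of_kernel H hv (z₁ := z₁) hz₁ t
  have key : ∀ c : ℝ, |c| = t → ‖y + c • v‖ = 1 := by
    intro c hc
    have hcv : ‖c • v‖ = 1 / 64 := by
      rw [norm_smul, Real.norm_eq_abs, hc, htv]
    have a1 : ‖(y + y) - (p + p)‖ < 1 / 16 := by
      have e : (y + y) - (p + p) = (y - p) + (y - p) := by abel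
      rw [e]
      refine (norm_add_le _ _).trans_lt ?_
      linarith
    have a2 : ‖(y + y + (2 * c) • v) - (p + p)‖ < 1 / 16 := by
      have e : (y + y + (2 * c) • v) - (p + p) = (y - p) + (y - p) + (c • v + c • v) := by
        rw [two_mul, add_smul]
        abel
      rw [e]
      refine (norm_add_le _ _).trans_lt ?_
      have b1 : ‖(y - p) + (y - p)‖ ≤ ‖y - p‖ + ‖y - p‖ := norm_add_le _ _
      have b2 : ‖c • v + c • v‖ ≤ ‖c • v‖ + ‖c • v‖ := norm_add_le _ _
      linarith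
    have h1 := hmono _ a1 (2 * c)
    have h2 := hmono _ a2 (-(2 * c))
    have e1 : y + y + (2 * c) • v + (-(2 * c)) • v = y + y := by
      rw [neg_smul]
      abel
    rw [e1] at h2
    have h3 : ‖y + y + (2 * c) • v‖ = ‖y + y‖ := le_antisymm h2 h1
    have e2 : y + y + (2 * c) • v = (2 : ℝ) • (y + c • v) := by
      rw [smul_add, smul_smul, two_smul]
    have e3 : y + y = (2 : ℝ) • y := (two_smul _ _).symm
    rw [e2, e3, norm_smul, norm_smul, hy1] at h3
    norm_num at h3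
    exact h3
  have h1 := key t (abs_of_pos ht0)
  have h2 := key (-t) (by rw [abs_neg, abs_of_pos ht0])
  have hm1 : y + t • v ∈ closedBall (0 : X) 1 := by
    rw [mem_closedBall_zero_iff, h1]
  have hm2 : y + (-t) • v ∈ closedBall (0 : X) 1 := by
    rw [mem_closedBall_zero_iff, h2]
  have hseg : y ∈ openSegment ℝ (y + t • v) (y + (-t) • v) := by
    refine ⟨1 / 2, 1 / 2, by norm_num, by norm_num, by norm_num, ?_⟩
    module
  have h3 := ((mem_extremePoints.1 hy).2 _ hm1 _ hm2 hseg).1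
  have h4 : t • v = 0 := by
    have : y + t • v - y = 0 := by rw [h3]; abel
    simpa using this
  rcases smul_eq_zero.1 h4 with h5 | h5
  · exact ht0.ne' h5
  · exact hne h5

/-- **Local linearity.** At an exact point which is a limit of extreme points the map coincides
with the exact map on a neighbourhood in the sphere. -/
theorem Ex.local_fix (H : SphereIso g h) (hE : Ex g p L L')
    (hext : ∀ ρ : ℝ, 0 < ρ → ∃ y ∈ (closedBall (0 : X) 1).extremePoints ℝ, ‖y - p‖ < ρ) :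
    ∃ δ : ℝ, 0 < δ ∧ ∀ y : X, ‖y‖ = 1 → ‖y - p‖ ≤ δ → g y = L y := by
  classical
  have hp := hE.unit
  obtain ⟨s, hsB, hs⟩ := exists_finset
    {φ : StrongDual ℝ X | ∃ w, In p (1 / 2) w ∧ Dif φ (p + w)} (by
      intro v hv
      exact hE.sep H hext hv)
  have hch : ∀ i : s, ∃ w, In p (1 / 2) w ∧ Dif (i : StrongDual ℝ X) (p + w) := fun i => hsB i i.2
  choose w hw using hch
  have hF : Fam p (1 / 2) w (fun i : s => (i : StrongDual ℝ X)) :=
    ⟨fun i => (hw i).1, fun i => (hw i).2, fun v hv => hs v fun Φ hΦ => hv ⟨Φ, hΦ⟩⟩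
  obtain ⟨δ, hδ, hδr, hfix⟩ := hF.fixed hp (by norm_num) (by norm_num)
  refine ⟨δ, hδ, fun y hy1 hyδ => ?_⟩
  have h1 := hfix _ _ (hE.gam H) y ⟨hy1, hyδ⟩
  have h2 := hE.ri (g y)
  rw [h1] at h2
  exact h2.symm

end Local

end Vale.Agent.Lib.P084.Cartan
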