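import Mathlib
import Vale.Agent.Lib.P084.Cartan.Local
import Vale.Agent.Lib.P084.Far.Main

/-! Limits of exact points, and linear maps coinciding with the isometry near a point. -/

namespace Vale.Agent.Lib.P084.Cartan

open Set Metric Filter Topology
open Vale.Agent.Lib.P084 Vale.Agent.Lib.P084.Far

section Limit

variable {X Y : Type*} [NormedAddCommGroup X] [NormedSpace ℝ X]
  [NormedAddCommGroup Y] [NormedSpace ℝ Y] {g : X → Y} {h : Y → X}
  [FiniteDimensional ℝ X] [FiniteDimensional ℝ Y] [Nontrivial X] [Nontrivial Y]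
  {p : X} {L : X →L[ℝ] Y} {L' : Y →L[ℝ] X}

/-- Exact maps are uniformly bounded. -/
lemma Ex.opNorm_le (H : SphereIso g h) (hE : Ex g p L L') : ‖L‖ ≤ 5 := by
  have hp := hE.unit
  refine ContinuousLinearMap.opNorm_le_bound _ (by norm_num) fun x => ?_
  by_cases hx : x = 0
  · simp [hx]
  have hn : 0 < ‖x‖ := norm_pos_iff.2 hx
  obtain ⟨a, ha⟩ : ∃ a, a = (1 / (2 * ‖x‖)) • x := ⟨_, rfl⟩
  have han : ‖a‖ = 1 / 2 := by
    rw [ha, norm_smul, Real.norm_of_nonneg (by positivity)]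
    field_simp
  have hP : InP p (p + a) := inP_of_close (by
    have e : p - (p + a) = -a := by abel
    rw [e, norm_neg, han]
    norm_num)
  have h1 := hE.norm_eq H hP
  have h2 := hE.norm_eq H (inP_self (e₀ := p))
  have h3 : ‖L a‖ ≤ ‖L (p + a)‖ + ‖L p‖ := by
    have e : L a = L (p + a) - L p := by
      rw [map_add]
      abel
    rw [e]
    exact norm_sub_le _ _
  have h4 : ‖p + a‖ ≤ 3 / 2 := by
    refine (norm_add_le _ _).trans ?_
    rw [hp, han]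
    norm_num
  rw [h1, h2, hp] at h3
  have h5 : ‖L a‖ ≤ 5 / 2 := by linarith
  have e2 : L x = (2 * ‖x‖) • L a := by
    rw [ha, map_smul, smul_smul]
    have : 2 * ‖x‖ * (1 / (2 * ‖x‖)) = 1 := by field_simp
    rw [this, one_smul]
  rw [e2, norm_smul, Real.norm_of_nonneg (by positivity)]
  nlinarith

/-- Functionals close to the norming functional at a chord. -/
lemma chord_close {z : X} {φ : StrongDual ℝ X} (hd : Dif φ z) {ε : ℝ} (hε : 0 < ε) :
    ∃ δ : ℝ, 0 < δ ∧ ∀ z' : X, ‖z' - z‖ ≤ δ → ∀ ψ, Nrm ψ z' → ‖ψ - φ‖ ≤ ε := by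
  obtain ⟨δ, hδ, h⟩ := dif_close_compact (K := {z}) isCompact_singleton (φ := φ)
    (by simpa using hd) hε
  exact ⟨δ, hδ, fun z' hz' ψ hψ => h z rfl z' hz' ψ hψ⟩

/-- Nearby chords at nearby points. -/
lemma exists_near_chord (H : SphereIso g h) {q : X} (hq : ‖q‖ = 1) {u : X} {φ : StrongDual ℝ X}
    {Φ : StrongDual ℝ Y} (hc : IsChord g q u φ Φ) {ε : ℝ} (hε : 0 < ε) :
    ∃ ρ : ℝ, 0 < ρ ∧ ∀ x : X, ‖x‖ = 1 → ‖x - q‖ < ρ →
      ∃ u' φ' Φ', IsChord g x u' φ' Φ' ∧ ‖φ' - φ‖ ≤ ε ∧ ‖Φ' - Φ‖ ≤ ε := by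
  have hd1 : Dif φ (q - u) := dif_of_reg hc.regX ⟨hc.φle, hc.φval⟩
  have hd2 : Dif Φ (g q - g u) := dif_of_reg hc.regY ⟨hc.Φle, hc.Φval⟩
  obtain ⟨δ₁, hδ₁, hb₁⟩ := chord_close hd1 hε
  obtain ⟨δ₂, hδ₂, hb₂⟩ := chord_close hd2 hε
  have hm := hc.mid
  obtain ⟨ρ, hρ⟩ : ∃ ρ, ρ = min ((2 - ‖q + u‖) / 2) (min (δ₁ / 2) (δ₂ / 2)) := ⟨_, rfl⟩
  have h1 : ρ ≤ (2 - ‖q + u‖) / 2 := hρ ▸ min_le_left _ _
  have h2 : ρ ≤ δ₁ / 2 := by
    rw [hρ]
    exact (min_le_right _ _).trans (min_le_left _ _)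
  have h3 : ρ ≤ δ₂ / 2 := by
    rw [hρ]
    exact (min_le_right _ _).trans (min_le_right _ _)
  have h0 : 0 < ρ := by
    rw [hρ]
    refine lt_min (by linarith) (lt_min (by positivity) (by positivity))
  refine ⟨ρ, h0, fun x hx hxq => ?_⟩
  have hmid : ‖x + u‖ < 2 := by
    have e : x + u = (q + u) + (x - q) := by abel
    rw [e]
    refine (norm_add_le _ _).trans_lt ?_
    linarith
  obtain ⟨u', φ', Φ', hc', hu'⟩ := exists_chord H hx hc.unit hmid h0
  refine ⟨u', φ', Φ', hc', ?_, ?_⟩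
  · refine hb₁ _ ?_ _ ⟨hc'.φle, hc'.φval⟩
    have e : x - u' - (q - u) = (x - q) - (u' - u) := by abel
    rw [e]
    refine (norm_sub_le _ _).trans ?_
    linarith
  · refine hb₂ _ ?_ _ ⟨hc'.Φle, hc'.Φval⟩
    have e : g x - g u' - (g q - g u) = (g x - g q) - (g u' - g u) := by abel
    rw [e]
    refine (norm_sub_le _ _).trans ?_
    rw [H.iso x q hx hq, H.iso u' u hc'.unit hc.unit]
    linarith

/-- **Limits of exact points are exact.** -/
theorem exact_of_limit (H : SphereIso g h) {q : X} (hq : ‖q‖ = 1)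
    (hlim : ∀ ρ : ℝ, 0 < ρ → ∃ x : X, ‖x‖ = 1 ∧ ‖x - q‖ < ρ ∧ ∃ L, Exact g x L) :
    ∃ L, Exact g q L := by
  have hpos : ∀ n : ℕ, (0 : ℝ) < 1 / ((n : ℝ) + 1) := fun n => by positivity
  choose x hx hxq Lx hLx using fun n : ℕ => hlim _ (hpos n)
  have hbd : ∀ n, ‖Lx n‖ ≤ 5 := by
    intro n
    obtain ⟨L', hE⟩ := exists_ex H (hx n) (hLx n)
    exact hE.opNorm_le H
  haveI : ProperSpace (X →L[ℝ] Y) := FiniteDimensional.proper ℝ _
  have hmem : ∀ n, Lx n ∈ closedBall (0 : X →L[ℝ] Y) 5 := fun n => by simpa using hbd n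
  obtain ⟨L₀, -, σ, hσ, hlimL⟩ := (isCompact_closedBall (0 : X →L[ℝ] Y) 5).tendsto_subseq hmem
  refine ⟨L₀, fun u φ Φ hc z => ?_⟩
  have hxlim : Tendsto (fun n => ‖x (σ n) - q‖) atTop (𝓝 0) := by
    have h1 : Tendsto (fun n : ℕ => 1 / (((σ n : ℕ) : ℝ) + 1)) atTop (𝓝 0) :=
      tendsto_one_div_add_atTop_nhds_zero_nat.comp hσ.tendsto_atTop
    exact squeeze_zero (fun _ => norm_nonneg _) (fun n => (hxq (σ n)).le) h1
  have hzero : |Φ (L₀ z) - φ z| ≤ 0 := by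
    refine le_of_forall_pos_le_add fun η hη => ?_
    obtain ⟨ε, hε⟩ : ∃ ε, ε = η / (3 * (5 * ‖z‖ + 1)) := ⟨_, rfl⟩
    have hd : 0 < 3 * (5 * ‖z‖ + 1) := by positivity
    have hε0 : 0 < ε := by
      rw [hε]
      positivity
    obtain ⟨ρ, hρ, hb⟩ := exists_near_chord H hq hc hε0
    have e1 : ∀ᶠ n in atTop, ‖x (σ n) - q‖ < ρ := hxlim.eventually (gt_mem_nhds hρ)
    have e2 : ∀ᶠ n in atTop, ‖Lx (σ n) - L₀‖ < ε := by
      have h1 : Tendsto (fun n => ‖Lx (σ n) - L₀‖) atTop (𝓝 0) := by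
        have := (hlimL.sub_const L₀).norm
        simpa using this
      exact h1.eventually (gt_mem_nhds hε0)
    obtain ⟨n, hn1, hn2⟩ := (e1.and e2).exists
    obtain ⟨u', φ', Φ', hc', hφ', hΦ'⟩ := hb _ (hx _) hn1
    have hrel := hLx (σ n) u' φ' Φ' hc' z
    obtain ⟨M, hM⟩ : ∃ M, M = Lx (σ n) := ⟨_, rfl⟩
    rw [← hM] at hrel hn2
    have hMb : ‖M‖ ≤ 5 := hM ▸ hbd _
    have t1 : |Φ (L₀ z) - Φ (M z)| ≤ ε * ‖z‖ := by
      rw [← map_sub]
      refine (functional_le Φ hc.Φle).trans ?_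
      have := (L₀ - M).le_opNorm z
      rw [_root_.sub_apply] at this
      refine this.trans (mul_le_mul_of_nonneg_right ?_ (norm_nonneg _))
      rw [norm_sub_rev]
      exact hn2.le
    have t2 : |Φ (M z) - Φ' (M z)| ≤ ε * (5 * ‖z‖) := by
      have e : Φ (M z) - Φ' (M z) = -((Φ' - Φ) (M z)) := by
        simp only [_root_.sub_apply]
        ring
      rw [e, abs_neg, ← Real.norm_eq_abs]
      refine ((Φ' - Φ).le_opNorm _).trans ?_
      refine mul_le_mul hΦ' ?_ (norm_nonneg _) hε0.le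
      refine (M.le_opNorm z).trans (mul_le_mul_of_nonneg_right hMb (norm_nonneg _))
    have t3 : |φ' z - φ z| ≤ ε * ‖z‖ := by
      have e : φ' z - φ z = (φ' - φ) z := by
        simp only [_root_.sub_apply]
      rw [e, ← Real.norm_eq_abs]
      exact ((φ' - φ).le_opNorm _).trans (mul_le_mul_of_nonneg_right hφ' (norm_nonneg _))
    have e3 : Φ (L₀ z) - φ z = (Φ (L₀ z) - Φ (M z)) + (Φ (M z) - Φ' (M z)) + (φ' z - φ z) := by
      rw [hrel]
      ring
    rw [e3]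
    refine (abs_add_le _ _).trans ?_
    have t4 := abs_add_le (Φ (L₀ z) - Φ (M z)) (Φ (M z) - Φ' (M z))
    have hfin : ε * (3 * (5 * ‖z‖ + 1)) = η := by
      rw [hε]
      field_simp
    have hz := norm_nonneg z
    nlinarith
  have := abs_nonpos_iff.1 hzero
  linarith

/-- A functional first order flat along the sphere at a smooth point vanishes on the tangent
space. -/
lemma vanish_on_ker {q : X} (hq : ‖q‖ = 1) {N D : StrongDual ℝ X} (hN : Dif N q)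
    (hD : SubAt D q) {a : X} (ha : N a = 0) : D a ≤ 0 := by
  refine le_of_forall_pos_le_add fun η hη => ?_
  obtain ⟨ε, hε⟩ : ∃ ε, ε = (η / 2) / ((‖a‖ + 1) * (|D q| + 1)) := ⟨_, rfl⟩
  have hd : 0 < (‖a‖ + 1) * (|D q| + 1) := by positivity
  have hε0 : 0 < ε := by
    rw [hε]
    positivity
  obtain ⟨δ₁, hδ₁, hb⟩ := hN.first_order hε0
  obtain ⟨δ₀, hδ₀⟩ : ∃ δ₀, δ₀ = δ₁ / (‖a‖ + 1) := ⟨_, rfl⟩
  have hδ₀0 : 0 < δ₀ := by
    rw [hδ₀]
    positivity
  obtain ⟨δ, hδ, hδle, hc⟩ := subAt_core hq hD a (η := η / 2) (by positivity) hδ₀0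
  have hsm : ‖δ • a‖ ≤ δ₁ := by
    rw [norm_smul, Real.norm_of_nonneg hδ.le]
    have h1 : δ * (‖a‖ + 1) ≤ δ₁ := by
      have := hδle
      rwa [hδ₀, le_div_iff₀ (by positivity)] at this
    nlinarith [norm_nonneg a]
  have h1 := hb (δ • a) hsm
  rw [map_smul, ha, smul_zero, hq, add_zero, norm_smul, Real.norm_of_nonneg hδ.le] at h1
  have h2 := hN.1.lower (δ • a)
  rw [map_smul, ha, smul_zero, hq, add_zero] at h2
  obtain ⟨r, hr⟩ : ∃ r, r = ‖q + δ • a‖ := ⟨_, rfl⟩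
  rw [← hr] at h1 h2 hc
  have h3 : (r - 1) * D q ≤ (ε * (δ * ‖a‖)) * |D q| := by
    calc (r - 1) * D q ≤ (r - 1) * |D q| :=
          mul_le_mul_of_nonneg_left (le_abs_self _) (by linarith)
      _ ≤ _ := mul_le_mul_of_nonneg_right (by linarith) (abs_nonneg _)
  have h4 : ε * ((‖a‖ + 1) * (|D q| + 1)) = η / 2 := by
    rw [hε]
    field_simp
  have h5 : ε * (‖a‖ * |D q|) ≤ η / 2 := by
    rw [← h4]
    refine mul_le_mul_of_nonneg_left ?_ hε0.le
    nlinarith [norm_nonneg a, abs_nonneg (D q)]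
  have h6 : δ * D a ≤ δ * (η / 2 + η / 2) := by
    have : (ε * (δ * ‖a‖)) * |D q| = δ * (ε * (‖a‖ * |D q|)) := by ring
    rw [this] at h3
    have h7 : δ * (ε * (‖a‖ * |D q|)) ≤ δ * (η / 2) := mul_le_mul_of_nonneg_left h5 hδ.le
    nlinarith
  have := le_of_mul_le_mul_left h6 hδ
  linarith

/-- A functional flat to second order along the sphere at a smooth point vanishes on the tangent
space. -/
lemma eq_zero_on_ker {q : X} (hq : ‖q‖ = 1) {N D : StrongDual ℝ X} (hN : Dif N q) {C : ℝ}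
    (hD : ∀ᶠ y in 𝓝 q, ‖y‖ = 1 → |D (y - q)| ≤ C * ‖y - q‖ ^ 2) {a : X} (ha : N a = 0) :
    D a = 0 := by
  obtain ⟨δ₀, hδ₀, hb⟩ := Metric.eventually_nhds_iff.1 hD
  have hsub : ∀ E : StrongDual ℝ X, (∀ v, |E v| = |D v|) → SubAt E q := by
    intro E hE ε hε
    obtain ⟨δ, hδ⟩ : ∃ δ, δ = min (δ₀ / 2) (ε / (|C| + 1)) := ⟨_, rfl⟩
    have h1 : δ ≤ δ₀ / 2 := hδ ▸ min_le_left _ _
    have h2 : δ ≤ ε / (|C| + 1) := hδ ▸ min_le_right _ _
    have h0 : 0 < δ := by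
      rw [hδ]
      exact lt_min (by positivity) (by positivity)
    refine ⟨δ, h0, fun y hy1 hyδ => ?_⟩
    have hd : dist y q < δ₀ := by
      rw [dist_eq_norm]
      linarith
    have h3 := hb hd hy1
    have h4 : E (y - q) ≤ |D (y - q)| := by
      rw [← hE]
      exact le_abs_self _
    have h5 : C * ‖y - q‖ ^ 2 ≤ |C| * ‖y - q‖ ^ 2 :=
      mul_le_mul_of_nonneg_right (le_abs_self _) (by positivity)
    have h8 : (|C| + 1) * ‖y - q‖ ≤ ε := by
      have := hyδ.trans h2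
      rwa [le_div_iff₀ (by positivity), mul_comm] at this
    have hn := norm_nonneg (y - q)
    nlinarith [abs_nonneg C]
  have h1 := vanish_on_ker hq hN (hsub D fun _ => rfl) ha
  have h2 := vanish_on_ker hq hN (hsub (-D) fun v => by
    simp only [_root_.neg_apply, abs_neg]) ha
  simp only [_root_.neg_apply] at h2
  linarith

/-- `g` coincides with `T` on the sphere near `x`. -/
def LinNear (g : X → Y) (T : X →L[ℝ] Y) (x : X) : Prop :=
  ∃ ρ : ℝ, 0 < ρ ∧ ∀ y : X, ‖y‖ = 1 → ‖y - x‖ < ρ → g y = T y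

/-- Smooth points are dense among the points where `g` is linear. -/
lemma exists_smooth_near {T : X →L[ℝ] Y} {x : X} (hx : ‖x‖ = 1) (hL : LinNear g T x) {ε : ℝ}
    (hε : 0 < ε) :
    ∃ x' N, ‖x'‖ = 1 ∧ ‖x' - x‖ < ε ∧ LinNear g T x' ∧ Dif N x' := by
  obtain ⟨ρ, hρ, hb⟩ := hL
  obtain ⟨η, hη⟩ : ∃ η, η = min (ρ / 3) (min (ε / 3) (1 / 2)) := ⟨_, rfl⟩
  have h1 : η ≤ ρ / 3 := hη ▸ min_le_left _ _
  have h2 : η ≤ ε / 3 := by
    rw [hη]
    exact (min_le_right _ _).trans (min_le_left _ _)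
  have h3 : η ≤ 1 / 2 := by
    rw [hη]
    exact (min_le_right _ _).trans (min_le_right _ _)
  have h0 : 0 < η := by
    rw [hη]
    exact lt_min (by positivity) (lt_min (by positivity) (by norm_num))
  obtain ⟨z, hz, hzd⟩ := (dense_differentiable (X := X)).exists_dist_lt x h0
  rw [dist_eq_norm] at hzd
  have hzn : 0 < ‖z‖ := by
    have := norm_sub_norm_le x z
    rw [hx] at this
    linarith
  obtain ⟨x', hx'⟩ : ∃ x', x' = ‖z‖⁻¹ • z := ⟨_, rfl⟩
  have hu : ‖x'‖ = 1 := by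
    rw [hx', norm_smul, norm_inv, norm_norm, inv_mul_cancel₀ hzn.ne']
  have hclose : ‖x' - x‖ < 2 * η := by
    have e : x' - x = (x' - z) + (z - x) := by abel
    have e1 : x' - z = (1 - ‖z‖) • x' := by
      rw [sub_smul, one_smul, hx', smul_smul, mul_inv_cancel₀ hzn.ne', one_smul]
    have h4 : ‖x' - z‖ ≤ η := by
      rw [e1, norm_smul, hu, mul_one, Real.norm_eq_abs]
      have h5 : |‖x‖ - ‖z‖| ≤ ‖x - z‖ := abs_norm_sub_norm_le x z
      rw [hx] at h5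
      exact h5.trans hzd.le
    rw [e]
    refine (norm_add_le _ _).trans_lt ?_
    rw [norm_sub_rev z x]
    linarith
  have hdiff : DifferentiableAt ℝ (fun w : X => ‖w‖) z := hz
  obtain ⟨N, hN⟩ := exists_nrm x'
  refine ⟨x', N, hu, by linarith, ⟨ρ / 3, by positivity, fun y hy hyx => ?_⟩, hN, fun ψ hψ => ?_⟩
  · refine hb y hy ?_
    have e : y - x = (y - x') + (x' - x) := by abel
    rw [e]
    refine (norm_add_le _ _).trans_lt ?_
    linarith
  · -- uniqueness of norming functionals at a differentiable point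
    have hval : ∀ χ : StrongDual ℝ X, Nrm χ x' → χ z = ‖z‖ := by
      intro χ hχ
      have hzz : z = ‖z‖ • x' := by
        rw [hx', smul_smul, mul_inv_cancel₀ hzn.ne', one_smul]
      rw [hzz, map_smul, hχ.2, hu, smul_eq_mul, mul_one, norm_smul, norm_norm, hu, mul_one]
    exact functional_eq_of_differentiableAt hdiff hψ.1 hN.1 (hval ψ hψ) (hval N hN)

end Limit

end Vale.Agent.Lib.P084.Cartan
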