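import Mathlib
import Vale.Agent.Lib.P084.Cartan.Limit

/-! Finitely many linear maps, no creases, and the master theorem. -/

namespace Vale.Agent.Lib.P084.Cartan

open Set Metric Filter Topology
open Vale.Agent.Lib.P084 Vale.Agent.Lib.P084.Far

section Final

variable {X Y : Type*} [NormedAddCommGroup X] [NormedSpace ℝ X]
  [NormedAddCommGroup Y] [NormedSpace ℝ Y] {g : X → Y} {h : Y → X}
  [FiniteDimensional ℝ X] [FiniteDimensional ℝ Y] [Nontrivial X] [Nontrivial Y]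

/-- The relation satisfied by a limit of local linear maps. -/
theorem limit_map (H : SphereIso g h) {x₀ : X} (hx₀ : ‖x₀‖ = 1) {T : X →L[ℝ] Y}
    (hT : ∀ ρ : ℝ, 0 < ρ → ∃ x : X, ‖x‖ = 1 ∧ ‖x - x₀‖ < ρ ∧ LinNear g T x) :
    ∃ N₀ : StrongDual ℝ X, Nrm N₀ x₀ ∧ ∀ u φ Φ, IsChord g x₀ u φ Φ → ∀ a, N₀ a = 0 →
      Φ (T a) = φ a := by
  have hpos : ∀ n : ℕ, (0 : ℝ) < 1 / ((n : ℝ) + 1) / 2 := fun n => by positivity
  have hseq : ∀ n : ℕ, ∃ x' N, ‖x'‖ = 1 ∧ ‖x' - x₀‖ < 1 / ((n : ℝ) + 1) ∧ LinNear g T x' ∧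
      Dif N x' := by
    intro n
    obtain ⟨x, hx, hxd, hxL⟩ := hT _ (hpos n)
    obtain ⟨x', N, hx', hd, hL, hN⟩ := exists_smooth_near hx hxL (hpos n)
    refine ⟨x', N, hx', ?_, hL, hN⟩
    have e : x' - x₀ = (x' - x) + (x - x₀) := by abel
    rw [e]
    refine (norm_add_le _ _).trans_lt ?_
    have := hpos n
    linarith
  choose x N hx hxd hxL hN using hseq
  have hmem : ∀ n, N n ∈ closedBall (0 : StrongDual ℝ X) 1 := fun n => by
    simpa using (hN n).1.1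
  obtain ⟨N₀, -, σ, hσ, hlim⟩ := isCompact_dualBall.tendsto_subseq hmem
  have hxlim : Tendsto (fun n => x (σ n)) atTop (𝓝 x₀) := by
    have h1 : Tendsto (fun n : ℕ => 1 / (((σ n : ℕ) : ℝ) + 1)) atTop (𝓝 0) :=
      tendsto_one_div_add_atTop_nhds_zero_nat.comp hσ.tendsto_atTop
    have h2 : Tendsto (fun n => x (σ n) - x₀) atTop (𝓝 0) :=
      squeeze_zero_norm (fun n => (hxd (σ n)).le) h1
    have := h2.add_const x₀
    simpa using this
  have hN₀ : Nrm N₀ x₀ := nrm_of_tendsto hlim hxlim fun n => (hN (σ n)).1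
  refine ⟨N₀, hN₀, fun u φ Φ hc a ha => ?_⟩
  have hzero : |Φ (T a) - φ a| ≤ 0 := by
    refine le_of_forall_pos_le_add fun η hη => ?_
    obtain ⟨ε, hε⟩ : ∃ ε, ε = η / (3 * ((‖T‖ + 1) * (‖a‖ + 1))) := ⟨_, rfl⟩
    have hd : 0 < 3 * ((‖T‖ + 1) * (‖a‖ + 1)) := by positivity
    have hε0 : 0 < ε := by
      rw [hε]
      positivity
    have hεη : ε * (3 * ((‖T‖ + 1) * (‖a‖ + 1))) = η := by
      rw [hε]
      field_simp
    obtain ⟨ρ, hρ, hb⟩ := exists_near_chord H hx₀ hc hε0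
    have e1 : ∀ᶠ n in atTop, ‖x (σ n) - x₀‖ < ρ := by
      have h1 : Tendsto (fun n => ‖x (σ n) - x₀‖) atTop (𝓝 0) := by
        have := (hxlim.sub_const x₀).norm
        simpa using this
      exact h1.eventually (gt_mem_nhds hρ)
    have e2 : ∀ᶠ n in atTop, |N (σ n) a| < ε := by
      have h1 : Tendsto (fun n => N (σ n) a) atTop (𝓝 (N₀ a)) := by
        have : Continuous fun χ : StrongDual ℝ X => χ a := by fun_prop
        exact (this.tendsto N₀).comp hlim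
      rw [ha] at h1
      have h2 := h1.abs
      rw [abs_zero] at h2
      exact h2.eventually (gt_mem_nhds hε0)
    obtain ⟨n, hn1, hn2⟩ := (e1.and e2).exists
    obtain ⟨u', φ', Φ', hc', hφ', hΦ'⟩ := hb _ (hx _) hn1
    obtain ⟨q, hq⟩ : ∃ q, q = x (σ n) := ⟨_, rfl⟩
    obtain ⟨Nq, hNq⟩ : ∃ Nq, Nq = N (σ n) := ⟨_, rfl⟩
    rw [← hq] at hc'
    rw [← hNq] at hn2
    have hq1 : ‖q‖ = 1 := hq ▸ hx _
    have hqL : LinNear g T q := hq ▸ hxL _
    have hqN : Dif Nq q := by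
      rw [hq, hNq]
      exact hN _
    obtain ⟨C, hC⟩ := chord_est H hq1 hc'
    obtain ⟨ρ', hρ', hL⟩ := hqL
    have hgq : g q = T q := hL q hq1 (by simpa using hρ')
    have hflat : ∀ᶠ y in 𝓝 q, ‖y‖ = 1 → |(Φ'.comp T - φ') (y - q)| ≤ C * ‖y - q‖ ^ 2 := by
      have hnear : ∀ᶠ y in 𝓝 q, ‖y - q‖ < ρ' := by
        filter_upwards [ball_mem_nhds q hρ'] with y hy
        rwa [mem_ball, dist_eq_norm] at hy
      filter_upwards [hC, hnear] with y hy hyn hy1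
      have h1 := hy hy1
      rw [hL y hy1 hyn, hgq, abs_sub_comm] at h1
      simp only [_root_.sub_apply, ContinuousLinearMap.comp_apply, map_sub]
      simp only [map_sub] at h1
      have e9 : Φ' (T y) - φ' y - (Φ' (T q) - φ' q) = Φ' (T y) - Φ' (T q) - (φ' y - φ' q) := by ring
      rw [e9]
      exact h1
    obtain ⟨c, hc₀⟩ : ∃ c, c = Nq a := ⟨_, rfl⟩
    have hNqq : Nq q = 1 := by
      rw [hqN.1.2, hq1]
    have hker : Nq (a - c • q) = 0 := by
      rw [map_sub, map_smul, hNqq, smul_eq_mul, mul_one, hc₀, sub_self]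
    have hD := eq_zero_on_ker hq1 hqN hflat hker
    simp only [_root_.sub_apply, ContinuousLinearMap.comp_apply, map_sub, map_smul,
      smul_eq_mul] at hD
    have t1 : |(Φ - Φ') (T a)| ≤ ε * (‖T‖ * ‖a‖) := by
      rw [← Real.norm_eq_abs]
      refine ((Φ - Φ').le_opNorm _).trans ?_
      rw [norm_sub_rev]
      exact mul_le_mul hΦ' (T.le_opNorm a) (norm_nonneg _) hε0.le
    have t2 : |(φ' - φ) a| ≤ ε * ‖a‖ := by
      rw [← Real.norm_eq_abs]
      exact ((φ' - φ).le_opNorm _).trans (mul_le_mul_of_nonneg_right hφ' (norm_nonneg _))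
    have t3 : |Φ' (T q)| ≤ ‖T‖ := by
      refine (functional_le Φ' hc'.Φle).trans ?_
      have := T.le_opNorm q
      rwa [hq1, mul_one] at this
    have t4 : |φ' q| ≤ 1 := by
      have := functional_le φ' hc'.φle (x := q)
      rwa [hq1] at this
    have hcε : |c| ≤ ε := by
      rw [hc₀]
      exact hn2.le
    have e3 : Φ (T a) - φ a = (Φ - Φ') (T a) + (φ' - φ) a + c * (Φ' (T q) - φ' q) := by
      simp only [_root_.sub_apply]
      have : Φ' (T a) - φ' a = c * (Φ' (T q) - φ' q) := by linarith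
      linarith
    rw [e3]
    have t5 : |c * (Φ' (T q) - φ' q)| ≤ ε * (‖T‖ + 1) := by
      rw [abs_mul]
      refine mul_le_mul hcε ?_ (abs_nonneg _) hε0.le
      refine (abs_sub _ _).trans ?_
      linarith
    have t6 := abs_add_le ((Φ - Φ') (T a) + (φ' - φ) a) (c * (Φ' (T q) - φ' q))
    have t7 := abs_add_le ((Φ - Φ') (T a)) ((φ' - φ) a)
    have ha0 := norm_nonneg a
    have hT0 := norm_nonneg T
    have hb1 : ε * (‖T‖ * ‖a‖) + ε * ‖a‖ + ε * (‖T‖ + 1) ≤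
        ε * (3 * ((‖T‖ + 1) * (‖a‖ + 1))) := by
      refine le_of_sub_nonneg ?_
      have : ε * (3 * ((‖T‖ + 1) * (‖a‖ + 1))) - (ε * (‖T‖ * ‖a‖) + ε * ‖a‖ + ε * (‖T‖ + 1)) =
          ε * (2 * (‖T‖ * ‖a‖) + 2 * ‖a‖ + 2 * ‖T‖ + 2) := by ring
      rw [this]
      positivity
    linarith
  have := abs_nonpos_iff.1 hzero
  linarith

omit [Nontrivial X] [Nontrivial Y] in
/-- A limit of local linear maps has the correct value at the limit point. -/
lemma map_of_limit (H : SphereIso g h) {x₀ : X} (hx₀ : ‖x₀‖ = 1) {T : X →L[ℝ] Y}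
    (hT : ∀ ρ : ℝ, 0 < ρ → ∃ x : X, ‖x‖ = 1 ∧ ‖x - x₀‖ < ρ ∧ LinNear g T x) : T x₀ = g x₀ := by
  have hzero : ‖T x₀ - g x₀‖ ≤ 0 := by
    refine le_of_forall_pos_le_add fun η hη => ?_
    have hd : 0 < ‖T‖ + 1 + 1 := by positivity
    obtain ⟨x, hx, hxd, ρ', hρ', hL⟩ := hT (η / (‖T‖ + 1 + 1)) (by positivity)
    have hgx : g x = T x := hL x hx (by simpa using hρ')
    have e : T x₀ - g x₀ = T (x₀ - x) + (g x - g x₀) := by
      rw [map_sub, hgx]
      abel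
    rw [e]
    refine (norm_add_le _ _).trans ?_
    rw [H.iso x x₀ hx hx₀]
    have h1 := T.le_opNorm (x₀ - x)
    rw [norm_sub_rev x₀ x] at h1
    have h2 : ‖x - x₀‖ * (‖T‖ + 1 + 1) < η := by
      rwa [lt_div_iff₀ hd] at hxd
    have hn := norm_nonneg (x - x₀)
    nlinarith [norm_nonneg T]
  have := norm_le_zero_iff.1 hzero
  exact sub_eq_zero.1 this

/-- Two linear maps related at the chords of `x₀` on a hyperplane and agreeing at `x₀`. -/
lemma eq_of_rel (H : SphereIso g h) {x₀ : X} (hx₀ : ‖x₀‖ = 1) {T T' : X →L[ℝ] Y}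
    {N : StrongDual ℝ X} (hN : Nrm N x₀) (hval : T x₀ = T' x₀)
    (hrel : ∀ u φ Φ, IsChord g x₀ u φ Φ → ∀ a, N a = 0 → Φ (T a) = Φ (T' a)) : T = T' := by
  ext z
  have hNx : N x₀ = 1 := by
    rw [hN.2, hx₀]
  have key := span_Y H hx₀ (v := T z - T' z) fun u φ Φ hc => by
    have hker : N (z - N z • x₀) = 0 := by
      rw [map_sub, map_smul, hNx, smul_eq_mul, mul_one, sub_self]
    have h1 := hrel u φ Φ hc _ hker
    rw [map_sub, map_sub, map_smul, map_smul, hval] at h1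
    rw [map_sub]
    simp only [map_sub, map_smul, smul_eq_mul] at h1
    linarith
  exact sub_eq_zero.1 key

/-- **No creases.** Two limits of local linear maps at the same point coincide. -/
theorem two_maps (H : SphereIso g h) {x₀ : X} (hx₀ : ‖x₀‖ = 1) {T₁ T₂ : X →L[ℝ] Y}
    (h₁ : ∀ ρ : ℝ, 0 < ρ → ∃ x : X, ‖x‖ = 1 ∧ ‖x - x₀‖ < ρ ∧ LinNear g T₁ x)
    (h₂ : ∀ ρ : ℝ, 0 < ρ → ∃ x : X, ‖x‖ = 1 ∧ ‖x - x₀‖ < ρ ∧ LinNear g T₂ x) : T₁ = T₂ := by
  obtain ⟨N₁, hN₁, r₁⟩ := limit_map H hx₀ h₁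
  obtain ⟨N₂, hN₂, r₂⟩ := limit_map H hx₀ h₂
  have v₁ := map_of_limit H hx₀ h₁
  have v₂ := map_of_limit H hx₀ h₂
  by_cases hR : Reg x₀
  · have hd : Dif N₁ x₀ := dif_of_reg hR hN₁
    have e : N₂ = N₁ := hd.2 _ hN₂
    rw [e] at r₂
    exact eq_of_rel H hx₀ hN₁ (v₁.trans v₂.symm) fun u φ Φ hc a ha => by
      rw [r₁ u φ Φ hc a ha, r₂ u φ Φ hc a ha]
  · obtain ⟨L, hL⟩ := exists_exact H hx₀ hR
    obtain ⟨L', hE⟩ := exists_ex H hx₀ hL
    have hv : L x₀ = g x₀ := hE.map_self H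
    have e₁ : T₁ = L := eq_of_rel H hx₀ hN₁ (v₁.trans hv.symm) fun u φ Φ hc a ha => by
      rw [r₁ u φ Φ hc a ha, hL u φ Φ hc a]
    have e₂ : T₂ = L := eq_of_rel H hx₀ hN₂ (v₂.trans hv.symm) fun u φ Φ hc a ha => by
      rw [r₂ u φ Φ hc a ha, hL u φ Φ hc a]
    rw [e₁, e₂]

/-- Every point of the sphere lies in a face with an extreme point. -/
lemma exists_extreme_star {x : X} (hx : ‖x‖ = 1) :
    ∃ e ∈ (closedBall (0 : X) 1).extremePoints ℝ, ‖x + e‖ = 2 := by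
  obtain ⟨φ, hφ⟩ := exists_nrm x
  have hφx : φ x = 1 := by
    rw [hφ.2, hx]
  obtain ⟨F, hF⟩ : ∃ F, F = {y ∈ closedBall (0 : X) 1 | ∀ z ∈ closedBall (0 : X) 1, φ z ≤ φ y} :=
    ⟨_, rfl⟩
  have hbd : ∀ z ∈ closedBall (0 : X) 1, φ z ≤ 1 := fun z hz => by
    have := hφ.le z
    have hz' : ‖z‖ ≤ 1 := by simpa using hz
    linarith
  have hxF : x ∈ F := by
    rw [hF]
    exact ⟨by simp [hx], fun z hz => by rw [hφx]; exact hbd z hz⟩
  have hFexp : IsExposed ℝ (closedBall (0 : X) 1) F := fun _ => ⟨φ, hF⟩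
  have hFext := hFexp.isExtreme
  have hFcomp : IsCompact F := by
    haveI : ProperSpace X := FiniteDimensional.proper ℝ X
    exact hFexp.isCompact (isCompact_closedBall _ _)
  obtain ⟨e, he⟩ := hFcomp.extremePoints_nonempty ⟨x, hxF⟩
  have heB := hFext.extremePoints_subset_extremePoints he
  have heF : e ∈ F := he.1
  rw [hF] at heF
  have hφe : φ e = 1 := by
    refine le_antisymm (hbd e heF.1) ?_
    rw [← hφx]
    exact heF.2 x (by simp [hx])
  have he1 : ‖e‖ = 1 := norm_of_extreme' heB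
  refine ⟨e, heB, le_antisymm ?_ ?_⟩
  · refine (norm_add_le _ _).trans ?_
    rw [hx, he1]
    norm_num
  · have := hφ.le (x + e)
    rw [map_add, hφx, hφe] at this
    linarith

/-- **Finitely many linear maps.** -/
theorem exists_cover (H : SphereIso g h)
    (hdense : ∀ e ∈ (closedBall (0 : X) 1).extremePoints ℝ, ∀ ρ : ℝ, 0 < ρ →
      ∃ p : X, ‖p‖ = 1 ∧ ‖p - e‖ < ρ ∧ ∃ L, Exact g p L) :
    ∃ s : Finset (X →L[ℝ] Y), ∀ x, ‖x‖ = 1 → ∃ T ∈ s, g x = T x := by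
  classical
  obtain ⟨E, hE⟩ : ∃ E, E = (closedBall (0 : X) 1).extremePoints ℝ := ⟨_, rfl⟩
  have hKunit : ∀ q ∈ closure E, ‖q‖ = 1 := by
    intro q hq
    have hcl : IsClosed {z : X | ‖z‖ = 1} := isClosed_eq (by fun_prop) (by fun_prop)
    refine closure_minimal ?_ hcl hq
    intro z hz
    rw [hE] at hz
    exact norm_of_extreme' hz
  have hKcomp : IsCompact (closure E) := by
    haveI : ProperSpace X := FiniteDimensional.proper ℝ X
    refine (isCompact_closedBall (0 : X) 1).of_isClosed_subset isClosed_closure fun z hz => ?_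
    simp [hKunit z hz]
  have hnear : ∀ q ∈ closure E, ∀ ρ : ℝ, 0 < ρ → ∃ y ∈ E, ‖y - q‖ < ρ := by
    intro q hq ρ hρ
    obtain ⟨y, hy, hd⟩ := Metric.mem_closure_iff.1 hq ρ hρ
    exact ⟨y, hy, by rwa [dist_comm, dist_eq_norm] at hd⟩
  have hexact : ∀ q ∈ closure E, ∃ L, Exact g q L := by
    intro q hq
    refine exact_of_limit H (hKunit q hq) fun ρ hρ => ?_
    obtain ⟨y, hy, hd⟩ := hnear q hq (ρ / 2) (by positivity)
    obtain ⟨p, hp, hpd, hL⟩ := hdense y (hE ▸ hy) (ρ / 2) (by positivity)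
    refine ⟨p, hp, ?_, hL⟩
    have e : p - q = (p - y) + (y - q) := by abel
    rw [e]
    refine (norm_add_le _ _).trans_lt ?_
    linarith
  have hloc : ∀ q ∈ closure E, ∃ L : X →L[ℝ] Y, ∃ δ : ℝ, 0 < δ ∧
      ∀ y : X, ‖y‖ = 1 → ‖y - q‖ ≤ δ → g y = L y := by
    intro q hq
    obtain ⟨L, hL⟩ := hexact q hq
    obtain ⟨L', hEx⟩ := exists_ex H (hKunit q hq) hL
    obtain ⟨δ, hδ, hb⟩ := hEx.local_fix H fun ρ hρ => by
      obtain ⟨y, hy, hd⟩ := hnear q hq ρ hρ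
      exact ⟨y, hE ▸ hy, hd⟩
    exact ⟨L, δ, hδ, hb⟩
  choose! Lq δq hδq hLq using hloc
  obtain ⟨t, htK, hcov⟩ := hKcomp.elim_nhds_subcover (fun q => ball q (δq q)) (fun q hq =>
    ball_mem_nhds q (hδq q hq))
  refine ⟨t.image Lq, fun x hx => ?_⟩
  obtain ⟨e, he, hxe⟩ := exists_extreme_star hx
  have heE : e ∈ closure E := subset_closure (hE ▸ he)
  have he1 : ‖e‖ = 1 := hKunit e heE
  obtain ⟨q, hqt, heq⟩ := mem_iUnion₂.1 (hcov heE)
  have hqK := htK q hqt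
  refine ⟨Lq q, Finset.mem_image_of_mem _ hqt, ?_⟩
  obtain ⟨L, hL⟩ := hexact e heE
  obtain ⟨L', hEx⟩ := exists_ex H he1 hL
  have h1 : g x = L x := by
    refine hEx.on_star H hx ?_
    rwa [add_comm]
  rw [h1]
  obtain ⟨K, -, hK⟩ := hEx.expansion H
  have hd : ‖e - q‖ < δq q := by rwa [mem_ball, dist_eq_norm] at heq
  have hEq : L - Lq q = 0 := by
    refine eq_of_second_order he1 ?_ (K := K) ?_
    · rw [_root_.sub_apply, hEx.map_self H, ← hLq q hqK e he1 hd.le, sub_self]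
    · have hnear2 : ∀ᶠ y in 𝓝 e, ‖y - q‖ ≤ δq q := by
        have : ∀ᶠ y in 𝓝 e, y ∈ ball q (δq q) := isOpen_ball.mem_nhds heq
        filter_upwards [this] with y hy
        rw [mem_ball, dist_eq_norm] at hy
        exact hy.le
      filter_upwards [hK, hnear2] with y hy1 hy2 hyu
      have h2 := hy1 hyu
      have h3 := hLq q hqK y hyu hy2
      have h4 := hLq q hqK e he1 hd.le
      rw [_root_.sub_apply, map_sub (Lq q), ← h3, ← h4, ← norm_neg]
      have e5 : -(L (y - e) - (g y - g e)) = g y - g e - L (y - e) := by abel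
      rw [e5]
      exact h2
  have := sub_eq_zero.1 hEq
  rw [this]

omit [FiniteDimensional ℝ X] [FiniteDimensional ℝ Y] [Nontrivial Y] in
lemma LinNear.mono_point {T : X →L[ℝ] Y} {x : X} (hL : LinNear g T x) :
    ∃ ρ : ℝ, 0 < ρ ∧ ∀ y : X, ‖y - x‖ < ρ → LinNear g T y := by
  obtain ⟨ρ, hρ, hb⟩ := hL
  refine ⟨ρ / 2, by positivity, fun y hy => ⟨ρ / 2, by positivity, fun z hz hzy => hb z hz ?_⟩⟩
  have e : z - x = (z - y) + (y - x) := by abel
  rw [e]
  refine (norm_add_le _ _).trans_lt ?_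
  linarith

omit [FiniteDimensional ℝ X] [FiniteDimensional ℝ Y] [Nontrivial Y] in
/-- Two linear maps coinciding with the isometry near one point coincide. -/
lemma LinNear.unique {T T' : X →L[ℝ] Y} {x : X} (hx : ‖x‖ = 1) (h₁ : LinNear g T x)
    (h₂ : LinNear g T' x) : T = T' := by
  obtain ⟨ρ₁, hρ₁, hb₁⟩ := h₁
  obtain ⟨ρ₂, hρ₂, hb₂⟩ := h₂
  have hval : T x = T' x := by
    rw [← hb₁ x hx (by simpa using hρ₁), ← hb₂ x hx (by simpa using hρ₂)]
  have hz : T - T' = 0 := by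
    refine eq_of_second_order hx (K := 0) ?_ ?_
    · rw [_root_.sub_apply, hval, sub_self]
    · have h1 : ∀ᶠ y in 𝓝 x, y ∈ ball x (min ρ₁ ρ₂) := ball_mem_nhds _ (lt_min hρ₁ hρ₂)
      filter_upwards [h1] with y hy hy1
      rw [mem_ball, dist_eq_norm] at hy
      have h2 := hb₁ y hy1 (hy.trans_le (min_le_left _ _))
      have h3 := hb₂ y hy1 (hy.trans_le (min_le_right _ _))
      rw [zero_mul, _root_.sub_apply, map_sub T, map_sub T', ← h2, ← h3, hval]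
      simp
  exact sub_eq_zero.1 hz

/-- **The master theorem.** If exact points are dense among the extreme points of the unit ball
then the isometry is the restriction of a linear map. -/
theorem exists_linear (H : SphereIso g h) (hrank : 1 < Module.rank ℝ X)
    (hdense : ∀ e ∈ (closedBall (0 : X) 1).extremePoints ℝ, ∀ ρ : ℝ, 0 < ρ →
      ∃ p : X, ‖p‖ = 1 ∧ ‖p - e‖ < ρ ∧ ∃ L, Exact g p L) :
    ∃ Λ : X →L[ℝ] Y, ∀ x, ‖x‖ = 1 → g x = Λ x := by
  classical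
  obtain ⟨s, hs⟩ := exists_cover H hdense
  -- density of the interiors
  let S := sphere (0 : X) 1
  have hunit : ∀ x : S, ‖(x : X)‖ = 1 := fun x => by simpa using x.2
  have hmemS : ∀ x : X, ‖x‖ = 1 → x ∈ S := fun x hx => by simpa [S] using hx
  have hcont : Continuous fun x : S => g x := by
    refine (Isometry.of_dist_eq fun a b => ?_).continuous
    rw [dist_eq_norm, H.iso _ _ (hunit a) (hunit b), Subtype.dist_eq, dist_eq_norm]
  let C : s → Set S := fun T => {x | g x = (T : X →L[ℝ] Y) x}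
  have hC : ∀ T, IsClosed (C T) := fun T =>
    isClosed_eq hcont ((T : X →L[ℝ] Y).continuous.comp continuous_subtype_val)
  have hU : ⋃ T, C T = univ := by
    refine eq_univ_of_forall fun x => ?_
    obtain ⟨T, hT, hx⟩ := hs x (hunit x)
    exact mem_iUnion.2 ⟨⟨T, hT⟩, hx⟩
  have hD := dense_iUnion_interior_of_closed hC hU
  have hdens : ∀ x₀ : X, ‖x₀‖ = 1 → ∀ ρ : ℝ, 0 < ρ → ∃ T ∈ s, ∃ x : X, ‖x‖ = 1 ∧ ‖x - x₀‖ < ρ ∧
      LinNear g T x := by
    intro x₀ hx₀ ρ hρ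
    obtain ⟨x, hx, hxd⟩ := hD.exists_dist_lt (⟨x₀, hmemS _ hx₀⟩ : S) hρ
    obtain ⟨⟨T, hT⟩, hxT⟩ := mem_iUnion.1 hx
    rw [mem_interior_iff_mem_nhds, Metric.mem_nhds_iff] at hxT
    obtain ⟨ρ', hρ', hb⟩ := hxT
    refine ⟨T, hT, x, hunit x, ?_, ρ', hρ', fun y hy hyx => ?_⟩
    · rw [Subtype.dist_eq, dist_eq_norm, norm_sub_rev] at hxd
      exact hxd
    · exact hb (show (⟨y, hmemS _ hy⟩ : S) ∈ ball x ρ' by
        rw [mem_ball, Subtype.dist_eq, dist_eq_norm]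
        exact hyx)
  -- local linearity everywhere
  have hall : ∀ x₀ : X, ‖x₀‖ = 1 → ∃ T ∈ s, LinNear g T x₀ := by
    intro x₀ hx₀
    let J : (X →L[ℝ] Y) → Prop := fun T =>
      ∀ ρ : ℝ, 0 < ρ → ∃ x : X, ‖x‖ = 1 ∧ ‖x - x₀‖ < ρ ∧ LinNear g T x
    have hout : ∀ T : s, ∃ r : ℝ, 0 < r ∧ (¬ J T → ∀ x : X, ‖x‖ = 1 → ‖x - x₀‖ < r →
        ¬ LinNear g (T : X →L[ℝ] Y) x) := by
      intro T
      by_cases hJ : J T
      · exact ⟨1, one_pos, fun h => absurd hJ h⟩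
      · have hJ' := hJ
        simp only [J, not_forall, not_exists, not_and] at hJ'
        obtain ⟨r, hr, hb⟩ := hJ'
        exact ⟨r, hr, fun _ x hx hxd => hb x hx hxd⟩
    choose r hr hrb using hout
    obtain ⟨ρ, hρ, -, hρr⟩ := exists_delta r hr one_pos
    have hinJ : ∀ T ∈ s, ∀ x : X, ‖x‖ = 1 → ‖x - x₀‖ < ρ → LinNear g T x → J T := by
      intro T hT x hx hxd hL
      by_contra hJ
      exact hrb ⟨T, hT⟩ hJ x hx (hxd.trans_le (hρr _)) hL
    obtain ⟨T₀, hT₀, x₁, hx₁, hx₁d, hx₁L⟩ := hdens x₀ hx₀ ρ hρ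
    have hJ₀ : J T₀ := hinJ T₀ hT₀ x₁ hx₁ hx₁d hx₁L
    refine ⟨T₀, hT₀, ρ / 2, by positivity, fun y hy hyd => ?_⟩
    have hzero : ‖g y - T₀ y‖ ≤ 0 := by
      refine le_of_forall_pos_le_add fun η hη => ?_
      obtain ⟨ρ', hρ'⟩ : ∃ ρ', ρ' = min (ρ / 2) (η / (‖T₀‖ + 1)) := ⟨_, rfl⟩
      have h1 : ρ' ≤ ρ / 2 := hρ' ▸ min_le_left _ _
      have h2 : ρ' ≤ η / (‖T₀‖ + 1) := hρ' ▸ min_le_right _ _
      have h0 : 0 < ρ' := by
        rw [hρ']
        exact lt_min (by positivity) (by positivity)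
      obtain ⟨T, hT, x, hx, hxd, hxL⟩ := hdens y hy ρ' h0
      have hxx : ‖x - x₀‖ < ρ := by
        have e : x - x₀ = (x - y) + (y - x₀) := by abel
        rw [e]
        refine (norm_add_le _ _).trans_lt ?_
        linarith
      have hJT := hinJ T hT x hx hxx hxL
      have hTe : T = T₀ := two_maps H hx₀ hJT hJ₀
      rw [hTe] at hxL
      obtain ⟨ρ'', hρ'', hb⟩ := hxL
      have hgx : g x = T₀ x := hb x hx (by simpa using hρ'')
      have e : g y - T₀ y = (g y - g x) + T₀ (x - y) := by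
        rw [hgx, map_sub]
        abel
      rw [e]
      refine (norm_add_le _ _).trans ?_
      rw [H.iso y x hy hx, norm_sub_rev y x]
      have h3 := T₀.le_opNorm (x - y)
      have h4 : ‖x - y‖ * (‖T₀‖ + 1) ≤ η := by
        have := hxd.le.trans h2
        rwa [le_div_iff₀ (by positivity)] at this
      nlinarith [norm_nonneg (x - y), norm_nonneg T₀]
    have := norm_le_zero_iff.1 hzero
    exact sub_eq_zero.1 this
  -- connectedness
  haveI : PreconnectedSpace S :=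
    Subtype.preconnectedSpace (isPreconnected_sphere hrank (0 : X) 1)
  obtain ⟨x₁, hx₁⟩ : ∃ x₁ : X, ‖x₁‖ = 1 := exists_norm_eq X zero_le_one
  obtain ⟨T₁, -, hT₁⟩ := hall x₁ hx₁
  let A : Set S := {x | LinNear g T₁ (x : X)}
  have hAopen : IsOpen A := by
    rw [Metric.isOpen_iff]
    intro x hx
    obtain ⟨ρ, hρ, hb⟩ := LinNear.mono_point hx
    refine ⟨ρ, hρ, fun y hy => hb y ?_⟩
    rw [mem_ball, Subtype.dist_eq, dist_eq_norm] at hy
    exact hy
  have hAc : IsOpen Aᶜ := by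
    rw [Metric.isOpen_iff]
    intro x hx
    obtain ⟨T, -, hT⟩ := hall x (hunit x)
    obtain ⟨ρ, hρ, hb⟩ := LinNear.mono_point hT
    refine ⟨ρ, hρ, fun y hy hyA => ?_⟩
    rw [mem_ball, Subtype.dist_eq, dist_eq_norm] at hy
    have h1 := hb y hy
    have h2 : T = T₁ := LinNear.unique (hunit y) h1 hyA
    rw [h2] at hT
    exact hx hT
  have hclopen : IsClopen A := ⟨⟨hAc⟩, hAopen⟩
  have hne : A.Nonempty := ⟨⟨x₁, hmemS _ hx₁⟩, hT₁⟩
  have hA := hclopen.eq_univ hne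
  refine ⟨T₁, fun x hx => ?_⟩
  have hxA : (⟨x, hmemS _ hx⟩ : S) ∈ A := by
    rw [hA]
    trivial
  obtain ⟨ρ, hρ, hb⟩ := hxA
  exact hb x hx (by simpa using hρ)

end Final

end Vale.Agent.Lib.P084.Cartan
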