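import Mathlib
import Vale.Agent.Lib.P084.Cartan.Final
import Vale.Agent.Lib.P084.Interface

/-! The Mazur-Ulam property for norms whose extreme points are limits of rough points. -/

namespace Vale.Agent.Lib.P084.Cartan

open Set Metric Filter Topology
open Vale.Agent.Lib.P084 Vale.Agent.Lib.P084.Far

section Main

variable {X Y : Type*} [NormedAddCommGroup X] [NormedSpace ℝ X]
  [NormedAddCommGroup Y] [NormedSpace ℝ Y]

lemma one_lt_rank (hdim : 2 ≤ Module.finrank ℝ X) : 1 < Module.rank ℝ X := by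
  have h0 : 0 < Module.finrank ℝ X := by omega
  have hfin : FiniteDimensional ℝ X := Module.finite_of_finrank_pos h0
  rw [← Module.finrank_eq_rank]
  exact_mod_cast (show 1 < Module.finrank ℝ X by omega)

/-- From the exact relation on a dense set of points near the extreme points to a linear isometry
extending the sphere isometry. -/
theorem linear_of_exact [FiniteDimensional ℝ X] (hdim : 2 ≤ Module.finrank ℝ X)
    (f : sphere (0 : X) 1 ≃ᵢ sphere (0 : Y) 1) {g : X → Y} {h : Y → X} (H : SphereIso g h)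
    (hgf : ∀ x : sphere (0 : X) 1, g x = f x)
    (hdense : ∀ e ∈ (closedBall (0 : X) 1).extremePoints ℝ, ∀ ρ : ℝ, 0 < ρ →
      ∃ p : X, ‖p‖ = 1 ∧ ‖p - e‖ < ρ ∧ ∃ L, Exact g p L) :
    ∃ T : X ≃ₗᵢ[ℝ] Y, ∀ x : sphere (0 : X) 1, T x = f x := by
  have : Nontrivial X := Module.nontrivial_of_finrank_pos (R := ℝ) (by omega)
  have : FiniteDimensional ℝ Y := finiteDimensional_of_sphere f
  obtain ⟨x₁, hx₁⟩ : ∃ x₁ : X, ‖x₁‖ = 1 := exists_norm_eq X zero_le_one
  have : Nontrivial Y := by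
    refine ⟨⟨g x₁, 0, fun h0 => ?_⟩⟩
    have := H.map_g x₁ hx₁
    rw [h0, norm_zero] at this
    exact zero_ne_one this
  obtain ⟨Λ, hΛ⟩ := exists_linear H (one_lt_rank hdim) hdense
  obtain ⟨T, hT⟩ := exists_linearIsometryEquiv_of_agree H (Λ : X →ₗ[ℝ] Y) fun u hu => by
    simp only [ContinuousLinearMap.coe_coe]
    exact (hΛ u hu).symm
  refine ⟨T, fun x => ?_⟩
  rw [hT x (by simpa using x.2), hgf]

/-- **Extreme points which are limits of points of infinite second difference.** -/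
theorem extreme_rough [FiniteDimensional ℝ X] (hdim : 2 ≤ Module.finrank ℝ X)
    (hdense : ∀ e ∈ (closedBall (0 : X) 1).extremePoints ℝ, ∀ ρ : ℝ, 0 < ρ →
      ∃ p : X, ‖p‖ = 1 ∧ ‖p - e‖ < ρ ∧
        ∀ C δ : ℝ, 0 < δ → ∃ z : X, ‖z‖ < δ ∧ C * ‖z‖ ^ 2 < ‖p + z‖ + ‖p - z‖ - 2)
    (f : sphere (0 : X) 1 ≃ᵢ sphere (0 : Y) 1) :
    ∃ T : X ≃ₗᵢ[ℝ] Y, ∀ x : sphere (0 : X) 1, T x = f x := by
  have : Nontrivial X := Module.nontrivial_of_finrank_pos (R := ℝ) (by omega)
  have : FiniteDimensional ℝ Y := finiteDimensional_of_sphere f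
  obtain ⟨g, h, H, hgf⟩ := exists_sphereIso f
  refine linear_of_exact hdim f H hgf fun e he ρ hρ => ?_
  obtain ⟨p, hp, hpe, hR⟩ := hdense e he ρ hρ
  exact ⟨p, hp, hpe, exists_exact H hp (not_reg_of hp hR)⟩

end Main

end Vale.Agent.Lib.P084.Cartan
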